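import Vale.Agent.P111.MathlibUsed
import Vale.Agent.P111.Defs

set_option linter.all false

/-! Averages and signs. -/

namespace Vale.Agent.P111.QL

open Finset

section Avg

variable {Ω Ω' E F : Type*} [Fintype Ω] [Fintype Ω'] [AddCommGroup E] [Module ℝ E]
  [AddCommGroup F] [Module ℝ F]

theorem avg_add (f g : Ω → E) : (avg fun ω => f ω + g ω) = avg f + avg g := by
  simp [avg, Finset.sum_add_distrib, smul_add]

theorem avg_neg (f : Ω → E) : (avg fun ω => - f ω) = - avg f := by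
  simp [avg]

theorem avg_zero : (avg fun _ : Ω => (0 : E)) = 0 := by
  simp [avg]

theorem avg_smul (c : ℝ) (f : Ω → E) : (avg fun ω => c • f ω) = c • avg f := by
  simp only [avg, ← Finset.smul_sum]
  rw [smul_comm]

theorem avg_mul_left (c : ℝ) (f : Ω → ℝ) : (avg fun ω => c * f ω) = c * avg f :=
  avg_smul c f

theorem avg_mul_right (c : ℝ) (f : Ω → ℝ) : (avg fun ω => f ω * c) = avg f * c := by
  simp only [mul_comm _ c]
  exact avg_smul c f

theorem avg_div (c : ℝ) (f : Ω → ℝ) : (avg fun ω => f ω / c) = avg f / c := by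
  simp only [div_eq_mul_inv]
  exact avg_mul_right _ f

theorem avg_sum {ι : Type*} (s : Finset ι) (f : ι → Ω → E) :
    (avg fun ω => ∑ i ∈ s, f i ω) = ∑ i ∈ s, avg (f i) := by
  simp only [avg, ← Finset.smul_sum]
  rw [Finset.sum_comm]

theorem avg_const [Nonempty Ω] (c : E) : (avg fun _ : Ω => c) = c := by
  have h : (Fintype.card Ω : ℝ) ≠ 0 := by
    exact_mod_cast Fintype.card_ne_zero
  simp only [avg, Finset.sum_const, Finset.card_univ]
  rw [← Nat.cast_smul_eq_nsmul ℝ, smul_smul, inv_mul_cancel₀ h, one_smul]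

theorem avg_comp_equiv (e : Ω ≃ Ω') (f : Ω' → E) : (avg fun ω => f (e ω)) = avg f := by
  simp only [avg]
  rw [Fintype.card_congr e, Equiv.sum_comp e f]

theorem avg_nonneg {f : Ω → ℝ} (h : ∀ ω, 0 ≤ f ω) : 0 ≤ avg f := by
  simp only [avg, smul_eq_mul]
  exact mul_nonneg (by positivity) (Finset.sum_nonneg fun ω _ => h ω)

theorem avg_mono {f g : Ω → ℝ} (h : ∀ ω, f ω ≤ g ω) : avg f ≤ avg g := by
  simp only [avg, smul_eq_mul]
  exact mul_le_mul_of_nonneg_left (Finset.sum_le_sum fun ω _ => h ω) (by positivity)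

theorem avg_congr {f g : Ω → E} (h : ∀ ω, f ω = g ω) : avg f = avg g := by
  have : f = g := funext h
  rw [this]

theorem avg_le_const [Nonempty Ω] {f : Ω → ℝ} {c : ℝ} (h : ∀ ω, f ω ≤ c) : avg f ≤ c := by
  have := avg_mono (f := f) (g := fun _ => c) h
  rwa [avg_const] at this

theorem const_le_avg [Nonempty Ω] {f : Ω → ℝ} {c : ℝ} (h : ∀ ω, c ≤ f ω) : c ≤ avg f := by
  have := avg_mono (f := fun _ => c) (g := f) h
  rwa [avg_const] at this

/-- Cauchy-Schwarz for averages. -/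
theorem avg_mul_sq_le (f g : Ω → ℝ) :
    (avg fun ω => f ω * g ω) ^ 2 ≤ (avg fun ω => f ω ^ 2) * avg fun ω => g ω ^ 2 := by
  simp only [avg, smul_eq_mul]
  have h := Finset.sum_mul_sq_le_sq_mul_sq Finset.univ f g
  have h2 : (0:ℝ) ≤ ((Fintype.card Ω : ℝ)⁻¹) ^ 2 := by positivity
  calc ((Fintype.card Ω : ℝ)⁻¹ * ∑ ω, f ω * g ω) ^ 2
      = ((Fintype.card Ω : ℝ)⁻¹) ^ 2 * (∑ ω, f ω * g ω) ^ 2 := by ring
    _ ≤ ((Fintype.card Ω : ℝ)⁻¹) ^ 2 * ((∑ ω, f ω ^ 2) * ∑ ω, g ω ^ 2) :=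
        mul_le_mul_of_nonneg_left h h2
    _ = _ := by ring

/-- Averages of products of functions of distinct coordinates. -/
theorem avg_pi_prod {I : Type*} [Fintype I] [DecidableEq I] {α : Type*} [Fintype α]
    (f : I → α → ℝ) :
    (avg fun ω : I → α => ∏ i, f i (ω i)) = ∏ i, avg (f i) := by
  simp only [avg, smul_eq_mul]
  rw [Finset.prod_mul_distrib, Finset.prod_const, Finset.card_univ, Fintype.card_fun,
    ← Fintype.piFinset_univ, ← Finset.prod_univ_sum]
  push_cast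
  rw [inv_pow]

end Avg

section Signs

theorem sg_one : sg 1 = 1 := by simp [sg]

theorem sg_neg_one : sg (-1) = -1 := by simp [sg]

theorem sg_mul (u v : ℤˣ) : sg (u * v) = sg u * sg v := by simp [sg]

theorem sg_mul_self (u : ℤˣ) : sg u * sg u = 1 := by
  rcases Int.units_eq_one_or u with h | h <;> simp [h, sg]

theorem sg_sq (u : ℤˣ) : sg u ^ 2 = 1 := by
  rw [sq, sg_mul_self]

theorem abs_sg (u : ℤˣ) : |sg u| = 1 := by
  rcases Int.units_eq_one_or u with h | h <;> simp [h, sg]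

theorem avg_units (f : ℤˣ → ℝ) : avg f = (f 1 + f (-1)) / 2 := by
  simp only [avg, Fintype.card_units_int, smul_eq_mul]
  rw [show (Finset.univ : Finset ℤˣ) = {1, -1} from rfl, Finset.sum_pair (by decide)]
  push_cast
  ring

theorem norm_sg_smul {E : Type*} [NormedAddCommGroup E] [NormedSpace ℝ E] (u : ℤˣ) (x : E) :
    ‖sg u • x‖ = ‖x‖ := by
  rw [norm_smul, Real.norm_eq_abs, abs_sg, one_mul]

end Signs

section Cube

variable {ι : Type*} [Fintype ι] [DecidableEq ι]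

/-- A function of the signs other than `ε i`, multiplied by `ε i`, has mean zero. -/
theorem avg_sg_mul_eq_zero (j : ι) (R : (ι → ℤˣ) → ℝ)
    (hR : ∀ θ, R (θ * Pi.mulSingle j (-1)) = R θ) :
    (avg fun θ : ι → ℤˣ => sg (θ j) * R θ) = 0 := by
  have h1 := avg_comp_equiv (Equiv.mulRight (Pi.mulSingle j (-1 : ℤˣ) : ι → ℤˣ))
    (fun θ => sg (θ j) * R θ)
  simp only [Equiv.coe_mulRight, hR, Pi.mul_apply, Pi.mulSingle_eq_same, sg_mul, sg_neg_one] at h1
  have h2 : (avg fun θ : ι → ℤˣ => sg (θ j) * -1 * R θ) =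
      - avg fun θ : ι → ℤˣ => sg (θ j) * R θ := by
    rw [← avg_neg]
    apply avg_congr
    intro θ
    ring
  rw [h2] at h1
  linarith

theorem avg_sg_mul_sg (j k : ι) :
    (avg fun θ : ι → ℤˣ => sg (θ j) * sg (θ k)) = if j = k then 1 else 0 := by
  split_ifs with h
  · subst h
    simp only [sg_mul_self]
    exact avg_const 1
  · exact avg_sg_mul_eq_zero j (fun θ => sg (θ k)) (by
      intro θ
      simp [Pi.mulSingle_eq_of_ne (Ne.symm h)])

theorem avg_four_le (j k l m : ι) :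
    (avg fun θ : ι → ℤˣ => sg (θ j) * sg (θ k) * (sg (θ l) * sg (θ m))) ≤
      (if j = k then (if l = m then 1 else 0) else 0) +
      (if j = l then (if k = m then 1 else 0) else 0) +
      (if j = m then (if k = l then 1 else 0) else 0) := by
  have hnn : ∀ a b c d : ι, (0:ℝ) ≤ if a = b then (if c = d then 1 else 0) else 0 := by
    intro a b c d
    split_ifs <;> norm_num
  by_cases h1 : j = k
  · subst h1
    have : ∀ θ : ι → ℤˣ, sg (θ j) * sg (θ j) * (sg (θ l) * sg (θ m)) =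
        sg (θ l) * sg (θ m) := by
      intro θ; rw [sg_mul_self, one_mul]
    simp only [this, avg_sg_mul_sg, if_true]
    linarith [hnn j l j m, hnn j m j l]
  by_cases h2 : j = l
  · subst h2
    have : ∀ θ : ι → ℤˣ, sg (θ j) * sg (θ k) * (sg (θ j) * sg (θ m)) =
        sg (θ k) * sg (θ m) := by
      intro θ
      calc sg (θ j) * sg (θ k) * (sg (θ j) * sg (θ m)) =
          (sg (θ j) * sg (θ j)) * (sg (θ k) * sg (θ m)) := by ring
        _ = _ := by rw [sg_mul_self, one_mul]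
    simp only [this, avg_sg_mul_sg, if_true]
    linarith [hnn j k j m, hnn j m k j]
  by_cases h3 : j = m
  · subst h3
    have : ∀ θ : ι → ℤˣ, sg (θ j) * sg (θ k) * (sg (θ l) * sg (θ j)) =
        sg (θ k) * sg (θ l) := by
      intro θ
      calc sg (θ j) * sg (θ k) * (sg (θ l) * sg (θ j)) =
          (sg (θ j) * sg (θ j)) * (sg (θ k) * sg (θ l)) := by ring
        _ = _ := by rw [sg_mul_self, one_mul]
    simp only [this, avg_sg_mul_sg, if_true]
    linarith [hnn j k l j, hnn j l k j]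
  · have h4 : (avg fun θ : ι → ℤˣ => sg (θ j) * sg (θ k) * (sg (θ l) * sg (θ m))) = 0 := by
      have := avg_sg_mul_eq_zero j (fun θ => sg (θ k) * (sg (θ l) * sg (θ m))) (by
        intro θ
        simp [Pi.mulSingle_eq_of_ne (Ne.symm h1), Pi.mulSingle_eq_of_ne (Ne.symm h2),
          Pi.mulSingle_eq_of_ne (Ne.symm h3)])
      rw [← this]
      apply avg_congr
      intro θ
      ring
    rw [h4]
    linarith [hnn j k l m, hnn j l k m, hnn j m k l]

/-- Second moment of a sum of signs. -/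
theorem avg_sum_sq : (avg fun θ : ι → ℤˣ => (∑ j, sg (θ j)) ^ 2) = Fintype.card ι := by
  have h : ∀ θ : ι → ℤˣ, (∑ j, sg (θ j)) ^ 2 = ∑ j, ∑ k, sg (θ j) * sg (θ k) := by
    intro θ
    rw [sq (∑ j, sg (θ j)), Finset.sum_mul_sum]
  simp only [h, avg_sum, avg_sg_mul_sg]
  simp

/-- Fourth moment of a sum of signs. -/
theorem avg_sum_four_le :
    (avg fun θ : ι → ℤˣ => (∑ j, sg (θ j)) ^ 4) ≤ 3 * (Fintype.card ι : ℝ) ^ 2 := by
  have h : ∀ θ : ι → ℤˣ, (∑ j, sg (θ j)) ^ 4 =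
      ∑ j, ∑ k, ∑ l, ∑ m, sg (θ j) * sg (θ k) * (sg (θ l) * sg (θ m)) := by
    intro θ
    have h1 : (∑ j, sg (θ j)) ^ 4 =
        ((∑ j, sg (θ j)) * ∑ j, sg (θ j)) * ((∑ j, sg (θ j)) * ∑ j, sg (θ j)) := by ring
    rw [h1, Finset.sum_mul_sum]
    simp only [Finset.sum_mul]
    apply Finset.sum_congr rfl
    intro j _
    apply Finset.sum_congr rfl
    intro k _
    rw [Finset.mul_sum]
    apply Finset.sum_congr rfl
    intro l _
    rw [Finset.mul_sum]
  simp only [h, avg_sum]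
  have h2 : ∑ j : ι, ∑ k : ι, ∑ l : ι, ∑ m : ι,
      (avg fun θ : ι → ℤˣ => sg (θ j) * sg (θ k) * (sg (θ l) * sg (θ m))) ≤
      ∑ j : ι, ∑ k : ι, ∑ l : ι, ∑ m : ι,
      ((if j = k then (if l = m then (1:ℝ) else 0) else 0) +
      (if j = l then (if k = m then 1 else 0) else 0) +
      (if j = m then (if k = l then 1 else 0) else 0)) := by
    refine Finset.sum_le_sum fun j _ => Finset.sum_le_sum fun k _ =>
      Finset.sum_le_sum fun l _ => Finset.sum_le_sum fun m _ => avg_four_le j k l m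
  refine h2.trans (le_of_eq ?_)
  simp only [Finset.sum_add_distrib]
  have e1 : ∑ j : ι, ∑ k : ι, ∑ l : ι, ∑ m : ι,
      (if j = k then (if l = m then (1:ℝ) else 0) else 0) = (Fintype.card ι : ℝ) ^ 2 := by
    have : ∀ j k : ι, ∑ l : ι, ∑ m : ι,
        (if j = k then (if l = m then (1:ℝ) else 0) else 0) =
          if j = k then (Fintype.card ι : ℝ) else 0 := by
      intro j k
      split_ifs <;> simp
    simp only [this]
    simp
    ring
  have e2 : ∑ j : ι, ∑ k : ι, ∑ l : ι, ∑ m : ι,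
      (if j = l then (if k = m then (1:ℝ) else 0) else 0) = (Fintype.card ι : ℝ) ^ 2 := by
    have : ∀ j k l : ι, ∑ m : ι,
        (if j = l then (if k = m then (1:ℝ) else 0) else 0) = if j = l then 1 else 0 := by
      intro j k l
      split_ifs <;> simp
    simp only [this]
    simp
    ring
  have e3 : ∑ j : ι, ∑ k : ι, ∑ l : ι, ∑ m : ι,
      (if j = m then (if k = l then (1:ℝ) else 0) else 0) = (Fintype.card ι : ℝ) ^ 2 := by
    have : ∀ j k l : ι, ∑ m : ι,
        (if j = m then (if k = l then (1:ℝ) else 0) else 0) = if k = l then 1 else 0 := by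
      intro j k l
      simp
    simp only [this]
    simp
    ring
  rw [e1, e2, e3]
  ring

/-- First absolute moment of a sum of signs. -/
theorem sqrt_le_avg_abs_sum (hn : 0 < Fintype.card ι) :
    √((Fintype.card ι : ℝ) / 3) ≤ avg fun θ : ι → ℤˣ => |∑ j, sg (θ j)| := by
  set n : ℝ := (Fintype.card ι : ℝ) with hndef
  have hn' : 0 < n := by rw [hndef]; exact_mod_cast hn
  set c : ℝ := √(3 * n) with hc
  have hc0 : 0 < c := Real.sqrt_pos.2 (by positivity)
  have hc2 : c ^ 2 = 3 * n := Real.sq_sqrt (by positivity)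
  -- pointwise inequality
  have key : ∀ s : ℝ, (3 * s ^ 2 / c - s ^ 4 / c ^ 3) / 2 ≤ |s| := by
    intro s
    have h1 : s ^ 2 = |s| ^ 2 := (sq_abs s).symm
    have h2 : s ^ 4 = |s| ^ 4 := by
      calc s ^ 4 = (s ^ 2) ^ 2 := by ring
        _ = (|s| ^ 2) ^ 2 := by rw [h1]
        _ = _ := by ring
    rw [h1, h2]
    set w := |s| / c with hw
    have hw0 : 0 ≤ w := by positivity
    have hs : |s| = c * w := by rw [hw]; field_simp
    rw [hs]
    have e : (3 * (c * w) ^ 2 / c - (c * w) ^ 4 / c ^ 3) / 2 = c * ((3 * w ^ 2 - w ^ 4) / 2) := by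
      field_simp
    rw [e]
    apply mul_le_mul_of_nonneg_left _ hc0.le
    nlinarith [mul_nonneg hw0 (mul_nonneg (sq_nonneg (w - 1)) (by linarith : (0:ℝ) ≤ w + 2))]
  have h1 := avg_mono (f := fun θ : ι → ℤˣ =>
    (3 * (∑ j, sg (θ j)) ^ 2 / c - (∑ j, sg (θ j)) ^ 4 / c ^ 3) / 2)
    (g := fun θ : ι → ℤˣ => |∑ j, sg (θ j)|) (fun θ => key _)
  refine le_trans ?_ h1
  have h2 : (avg fun θ : ι → ℤˣ =>
      (3 * (∑ j, sg (θ j)) ^ 2 / c - (∑ j, sg (θ j)) ^ 4 / c ^ 3) / 2) =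
      3 / (2 * c) * (avg fun θ : ι → ℤˣ => (∑ j, sg (θ j)) ^ 2) +
        (-(1 / (2 * c ^ 3))) * (avg fun θ : ι → ℤˣ => (∑ j, sg (θ j)) ^ 4) := by
    rw [← avg_mul_left, ← avg_mul_left, ← avg_add]
    apply avg_congr
    intro θ
    field_simp
    ring
  rw [h2, avg_sum_sq]
  have h3 := avg_sum_four_le (ι := ι)
  rw [← hndef] at h3 ⊢
  have h4 : (-(1 / (2 * c ^ 3))) * (3 * n ^ 2) ≤
      (-(1 / (2 * c ^ 3))) * (avg fun θ : ι → ℤˣ => (∑ j, sg (θ j)) ^ 4) := by
    apply mul_le_mul_of_nonpos_left h3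
    have : 0 < 1 / (2 * c ^ 3) := by positivity
    linarith
  refine le_trans ?_ (add_le_add le_rfl h4)
  have h5 : 3 / (2 * c) * n + (-(1 / (2 * c ^ 3))) * (3 * n ^ 2) = n / c := by
    have : n = c ^ 2 / 3 := by linarith
    rw [this]
    field_simp
    ring
  rw [h5]
  apply Real.sqrt_le_iff.2
  refine ⟨by positivity, ?_⟩
  rw [div_pow, hc2]
  apply le_of_eq
  field_simp

/-- Restricting a Rademacher sum to a subset of the indices does not increase it. -/
theorem avg_sum_subset_le {E : Type*} [NormedAddCommGroup E] [NormedSpace ℝ E] (y : ι → E)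
    (J : Finset ι) :
    (avg fun ε : ι → ℤˣ => ‖∑ i ∈ J, sg (ε i) • y i‖ ^ 2) ≤
      avg fun ε : ι → ℤˣ => ‖∑ i, sg (ε i) • y i‖ ^ 2 := by
  let η : ι → ℤˣ := fun i => if i ∈ J then 1 else -1
  have h1 : ∀ ε : ι → ℤˣ, ‖∑ i ∈ J, sg (ε i) • y i‖ ^ 2 ≤
      (1 / 2 : ℝ) * ‖∑ i, sg (ε i) • y i‖ ^ 2 + (1 / 2) * ‖∑ i, sg ((ε * η) i) • y i‖ ^ 2 := by
    intro ε
    have e : ∑ i ∈ J, sg (ε i) • y i =
        (1 / 2 : ℝ) • (∑ i, sg (ε i) • y i) + (1 / 2 : ℝ) • ∑ i, sg ((ε * η) i) • y i := by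
      rw [Finset.smul_sum, Finset.smul_sum, ← Finset.sum_add_distrib,
        ← Finset.sum_filter_add_sum_filter_not Finset.univ (fun i => i ∈ J)]
      have e1 : ∑ i ∈ Finset.univ.filter (fun i => i ∉ J),
          ((1 / 2 : ℝ) • (sg (ε i) • y i) + (1 / 2 : ℝ) • (sg ((ε * η) i) • y i)) = 0 := by
        apply Finset.sum_eq_zero
        intro i hi
        have hi' : i ∉ J := (Finset.mem_filter.1 hi).2
        simp only [Pi.mul_apply, η, if_neg hi', sg_mul, sg_neg_one]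
        rw [← smul_add, ← add_smul]
        simp
      have e2 : Finset.univ.filter (fun i => i ∈ J) = J := by ext i; simp
      rw [e1, add_zero, e2]
      apply Finset.sum_congr rfl
      intro i hi
      simp only [Pi.mul_apply, η, if_pos hi, sg_mul, sg_one, mul_one]
      rw [← add_smul]
      norm_num
    rw [e]
    set u := ∑ i, sg (ε i) • y i
    set v := ∑ i, sg ((ε * η) i) • y i
    have h2 : ‖(1 / 2 : ℝ) • u + (1 / 2 : ℝ) • v‖ ≤ (1 / 2) * ‖u‖ + (1 / 2) * ‖v‖ := by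
      refine (norm_add_le _ _).trans (le_of_eq ?_)
      rw [norm_smul, norm_smul, Real.norm_of_nonneg (by norm_num : (0:ℝ) ≤ 1 / 2)]
    have h3 : ‖(1 / 2 : ℝ) • u + (1 / 2 : ℝ) • v‖ ^ 2 ≤ ((1 / 2) * ‖u‖ + (1 / 2) * ‖v‖) ^ 2 := by
      gcongr
    nlinarith [sq_nonneg (‖u‖ - ‖v‖)]
  refine (avg_mono h1).trans (le_of_eq ?_)
  rw [avg_add, avg_mul_left, avg_mul_left]
  have h4 := avg_comp_equiv (Equiv.mulRight η) (fun ε : ι → ℤˣ => ‖∑ i, sg (ε i) • y i‖ ^ 2)
  simp only [Equiv.coe_mulRight] at h4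
  rw [h4]
  ring

/-- Each term is at most the Rademacher average. -/
theorem norm_sq_le_avg {E : Type*} [NormedAddCommGroup E] [NormedSpace ℝ E] (y : ι → E) (i : ι) :
    ‖y i‖ ^ 2 ≤ avg fun ε : ι → ℤˣ => ‖∑ i, sg (ε i) • y i‖ ^ 2 := by
  have h := avg_sum_subset_le y {i}
  simp only [Finset.sum_singleton, norm_sg_smul] at h
  rwa [avg_const] at h

end Cube

end Vale.Agent.P111.QL
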