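import Vale.Agent.P111.Defs

/-! Quantitative forms of the definitions, used in the statement of `QuantLower`. -/

namespace Vale.Agent.P111

/-- `C_q(Y) ≤ C`. -/
def CotypeWith (q C : ℝ) (Y : Type*) [NormedAddCommGroup Y] [NormedSpace ℝ Y] : Prop :=
  ∀ (n : ℕ) (y : Fin n → Y),
    (∑ i, ‖y i‖ ^ q) ^ (1 / q) ≤
      C * (avg fun ε : Fin n → ℤˣ => ‖∑ i, sg (ε i) • y i‖ ^ 2) ^ (1 / 2 : ℝ)

/-- `K(X) ≤ K`. -/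
def KConvexWith (K : ℝ) (X : Type*) [NormedAddCommGroup X] [NormedSpace ℝ X] : Prop :=
  ∀ (n : ℕ) (f : (Fin n → ℤˣ) → X),
    (avg fun ε => ‖rad f ε‖ ^ 2) ^ (1 / 2 : ℝ) ≤ K * (avg fun ε => ‖f ε‖ ^ 2) ^ (1 / 2 : ℝ)

end Vale.Agent.P111
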