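import Vale.Agent.P111.QL.KFun

set_option linter.all false

/-! Type and cotype inequalities for the `K`-functional. -/

namespace Vale.Agent.P111.QL

open Finset

variable {ι : Type*} [Fintype ι] [DecidableEq ι]

theorem avg_double (J : Finset ι) (B : ι → ι → ℝ) :
    (avg fun ε : ι → ℤˣ => ∑ i ∈ J, ∑ j ∈ J, sg (ε i) * sg (ε j) * B i j) = ∑ i ∈ J, B i i := by
  rw [avg_sum]
  apply Finset.sum_congr rfl
  intro i hi
  rw [avg_sum]
  have h : ∀ j, (avg fun ε : ι → ℤˣ => sg (ε i) * sg (ε j) * B i j) =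
      if i = j then B i j else 0 := by
    intro j
    rw [avg_mul_right, avg_sg_mul_sg]
    split_ifs <;> simp
  simp only [h]
  simp [hi]

variable {X P : Type*} [Fintype X] [Fintype P] (A : P → X → ℝ) {t : ℝ}

theorem type_ineq_aux {n : ℕ} (hn : 1 ≤ n) (hX : Fintype.card X ≤ 4 ^ n)
    (ht : 0 ≤ t) {J : Finset ι} (hJ : J.Nonempty) (x : ι → X → ℝ) {δ : ℝ} (hδ : 0 < δ) :
    (avg fun ε : ι → ℤˣ => kf A t (∑ i ∈ J, sg (ε i) • x i) ^ 2) ≤
      88 * J.card * ∑ i ∈ J, (kf A (t * √(n / J.card)) (x i) + δ) ^ 2 := by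
  have hJ0 : (0:ℝ) < J.card := by exact_mod_cast hJ.card_pos
  have hn0 : (0:ℝ) < n := by exact_mod_cast hn
  set t' : ℝ := t * √(n / J.card) with ht'
  have ht'0 : 0 ≤ t' := by positivity
  have ht'2 : t' ^ 2 * J.card = t ^ 2 * n := by
    rw [ht', mul_pow, Real.sq_sqrt (by positivity)]
    field_simp
  choose c hc using fun i => exists_lt A (t := t') (x i) hδ
  set r : ι → X → ℝ := fun i => x i - ∑ p, c i p • A p with hr
  set a : ι → ℝ := fun i => ∑ p, |c i p| with ha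
  have ha0 : ∀ i, 0 ≤ a i := fun i => Finset.sum_nonneg fun p _ => abs_nonneg _
  have h1 : ∀ ε : ι → ℤˣ, kf A t (∑ i ∈ J, sg (ε i) • x i) ≤
      (∑ i ∈ J, a i) + t * ‖∑ i ∈ J, sg (ε i) • r i‖ := by
    intro ε
    refine (kf_le A ht _ (fun p => ∑ i ∈ J, sg (ε i) * c i p)).trans ?_
    unfold cst
    have e1 : ∑ i ∈ J, sg (ε i) • x i - ∑ p, (∑ i ∈ J, sg (ε i) * c i p) • A p =
        ∑ i ∈ J, sg (ε i) • r i := by
      simp only [hr, smul_sub, Finset.sum_sub_distrib, Finset.smul_sum, Finset.sum_smul, mul_smul]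
      rw [Finset.sum_comm]
    rw [e1]
    have e2 : ∑ p, |∑ i ∈ J, sg (ε i) * c i p| ≤ ∑ i ∈ J, a i := by
      rw [ha, Finset.sum_comm]
      apply Finset.sum_le_sum
      intro p _
      refine (Finset.abs_sum_le_sum_abs _ _).trans (le_of_eq ?_)
      apply Finset.sum_congr rfl
      intro i _
      rw [abs_mul, abs_sg, one_mul]
    linarith
  have h2 : ∀ ε : ι → ℤˣ, kf A t (∑ i ∈ J, sg (ε i) • x i) ^ 2 ≤
      2 * (∑ i ∈ J, a i) ^ 2 + 2 * t ^ 2 * ‖∑ i ∈ J, sg (ε i) • r i‖ ^ 2 := by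
    intro ε
    have h3 := h1 ε
    have h4 := kf_nonneg A ht (∑ i ∈ J, sg (ε i) • x i)
    have h5 : kf A t (∑ i ∈ J, sg (ε i) • x i) ^ 2 ≤
        ((∑ i ∈ J, a i) + t * ‖∑ i ∈ J, sg (ε i) • r i‖) ^ 2 := by gcongr
    nlinarith [sq_nonneg ((∑ i ∈ J, a i) - t * ‖∑ i ∈ J, sg (ε i) • r i‖)]
  refine (avg_mono h2).trans ?_
  rw [avg_add, avg_const, avg_mul_left]
  have h3 := sup_type2 hn hX J r
  have h4 : (∑ i ∈ J, a i) ^ 2 ≤ J.card * ∑ i ∈ J, a i ^ 2 := sq_sum_le_card_mul_sum_sq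
  have h5 : ∀ i, a i ^ 2 + t' ^ 2 * ‖r i‖ ^ 2 ≤ (kf A t' (x i) + δ) ^ 2 := by
    intro i
    have h6 : a i + t' * ‖r i‖ < kf A t' (x i) + δ := hc i
    have h7 : 0 ≤ t' * ‖r i‖ := by positivity
    have h8 := ha0 i
    nlinarith
  calc 2 * (∑ i ∈ J, a i) ^ 2 +
        2 * t ^ 2 * (avg fun ε : ι → ℤˣ => ‖∑ i ∈ J, sg (ε i) • r i‖ ^ 2)
      ≤ 2 * (J.card * ∑ i ∈ J, a i ^ 2) + 2 * t ^ 2 * (44 * n * ∑ i ∈ J, ‖r i‖ ^ 2) := by
        gcongr
    _ = 2 * (J.card * ∑ i ∈ J, a i ^ 2) + 88 * (t ^ 2 * n) * ∑ i ∈ J, ‖r i‖ ^ 2 := by ring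
    _ = 2 * (J.card * ∑ i ∈ J, a i ^ 2) + 88 * (t' ^ 2 * J.card) * ∑ i ∈ J, ‖r i‖ ^ 2 := by
        rw [ht'2]
    _ ≤ 88 * (J.card * ∑ i ∈ J, a i ^ 2) + 88 * (t' ^ 2 * J.card) * ∑ i ∈ J, ‖r i‖ ^ 2 := by
        have : 0 ≤ J.card * ∑ i ∈ J, a i ^ 2 :=
          mul_nonneg hJ0.le (Finset.sum_nonneg fun i _ => sq_nonneg _)
        linarith
    _ = 88 * J.card * ∑ i ∈ J, (a i ^ 2 + t' ^ 2 * ‖r i‖ ^ 2) := by
        rw [Finset.sum_add_distrib, ← Finset.mul_sum]
        ring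
    _ ≤ 88 * J.card * ∑ i ∈ J, (kf A t' (x i) + δ) ^ 2 := by
        gcongr with i _
        exact h5 i

/-- Type inequality. -/
theorem type_ineq {n : ℕ} (hn : 1 ≤ n) (hX : Fintype.card X ≤ 4 ^ n)
    (ht : 0 ≤ t) {J : Finset ι} (hJ : J.Nonempty) (x : ι → X → ℝ) :
    (avg fun ε : ι → ℤˣ => kf A t (∑ i ∈ J, sg (ε i) • x i) ^ 2) ≤
      88 * J.card * ∑ i ∈ J, kf A (t * √(n / J.card)) (x i) ^ 2 := by
  have hcont : Continuous fun δ : ℝ =>
      88 * (J.card : ℝ) * ∑ i ∈ J, (kf A (t * √(n / J.card)) (x i) + δ) ^ 2 := by fun_prop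
  have hlim := (hcont.tendsto 0).mono_left (nhdsWithin_le_nhds (s := Set.Ioi (0:ℝ)))
  simp only [add_zero] at hlim
  refine ge_of_tendsto hlim ?_
  filter_upwards [self_mem_nhdsWithin] with δ hδ
  exact type_ineq_aux A hn hX ht hJ x hδ

/-- Cotype inequality. -/
theorem cotype_ineq {n : ℕ} (hn : 1 ≤ n) (hP : Fintype.card P ≤ 4 ^ n)
    (ht : 0 < t) {J : Finset ι} (hJ : J.Nonempty) (x : ι → X → ℝ) :
    ∑ i ∈ J, kf A t (x i) ^ 2 ≤
      45 * n * avg fun ε : ι → ℤˣ => kf A (t * √(J.card / n)) (∑ i ∈ J, sg (ε i) • x i) ^ 2 := by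
  classical
  have hJ0 : (0:ℝ) < J.card := by exact_mod_cast hJ.card_pos
  have hn0 : (0:ℝ) < n := by exact_mod_cast hn
  set t' : ℝ := t * √(J.card / n) with ht'
  have ht'0 : 0 < t' := mul_pos ht (Real.sqrt_pos.2 (by positivity))
  have ht'2 : t' ^ 2 * n = t ^ 2 * J.card := by
    rw [ht', mul_pow, Real.sq_sqrt (by positivity)]
    field_simp
  choose μ hμ1 hμ2 using fun i => exists_dual A ht.le (x i)
  set a : ι → ℝ := fun i => kf A t (x i) with ha
  have ha0 : ∀ i, 0 ≤ a i := fun i => kf_nonneg A ht.le _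
  set S : ℝ := ∑ i ∈ J, a i ^ 2 with hS
  have hS0 : 0 ≤ S := Finset.sum_nonneg fun i _ => sq_nonneg _
  set w : (ι → ℤˣ) → X → ℝ := fun ε => ∑ j ∈ J, sg (ε j) • x j with hw
  set ν : (ι → ℤˣ) → X → ℝ := fun ε => ∑ i ∈ J, (sg (ε i) * a i) • μ i with hν
  set u : ι → P → ℝ := fun i p => ∑ y, μ i y * A p y with hu
  set m : (ι → ℤˣ) → P → ℝ := fun ε => ∑ i ∈ J, sg (ε i) • (a i • u i) with hm
  set T : ℝ := t / t' * ∑ i ∈ J, a i with hT
  have hT0 : 0 ≤ T := mul_nonneg (by positivity) (Finset.sum_nonneg fun i _ => ha0 i)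
  set D : (ι → ℤˣ) → ℝ := fun ε => √(‖m ε‖ ^ 2 + T ^ 2) with hD
  -- the pairing
  have h1 : (avg fun ε : ι → ℤˣ => ∑ y, ν ε y * w ε y) = S := by
    have e : ∀ ε : ι → ℤˣ, ∑ y, ν ε y * w ε y =
        ∑ i ∈ J, ∑ j ∈ J, sg (ε i) * sg (ε j) * (a i * ∑ y, μ i y * x j y) := by
      intro ε
      simp only [hν, hw, Finset.sum_apply, Pi.smul_apply, smul_eq_mul, Finset.sum_mul_sum]
      rw [Finset.sum_comm]
      apply Finset.sum_congr rfl
      intro i _
      rw [Finset.sum_comm]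
      apply Finset.sum_congr rfl
      intro j _
      rw [Finset.mul_sum, Finset.mul_sum]
      apply Finset.sum_congr rfl
      intro y _
      ring
    rw [avg_congr e, avg_double]
    apply Finset.sum_congr rfl
    intro i _
    rw [hμ1 i, sq]
  have hm' : ∀ (ε : ι → ℤˣ) (p : P), m ε p = ∑ y, ν ε y * A p y := by
    intro ε p
    simp only [hm, hν, hu, Finset.sum_apply, Pi.smul_apply, smul_eq_mul, Finset.sum_mul]
    rw [Finset.sum_comm]
    apply Finset.sum_congr rfl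
    intro i _
    rw [Finset.mul_sum, Finset.mul_sum]
    apply Finset.sum_congr rfl
    intro y _
    ring
  have hν1 : ∀ ε : ι → ℤˣ, ∑ y, |ν ε y| ≤ t * ∑ i ∈ J, a i := by
    intro ε
    calc ∑ y, |ν ε y| ≤ ∑ y, ∑ i ∈ J, a i * |μ i y| := by
          apply Finset.sum_le_sum
          intro y _
          simp only [hν, Finset.sum_apply, Pi.smul_apply, smul_eq_mul]
          refine (Finset.abs_sum_le_sum_abs _ _).trans (le_of_eq ?_)
          apply Finset.sum_congr rfl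
          intro i _
          rw [abs_mul, abs_mul, abs_sg, one_mul, abs_of_nonneg (ha0 i)]
      _ = ∑ i ∈ J, a i * ∑ y, |μ i y| := by
          rw [Finset.sum_comm]
          apply Finset.sum_congr rfl
          intro i _
          rw [Finset.mul_sum]
      _ ≤ ∑ i ∈ J, a i * t := by
          apply Finset.sum_le_sum
          intro i _
          exact mul_le_mul_of_nonneg_left (dual_l1 A ht.le (hμ2 i)) (ha0 i)
      _ = t * ∑ i ∈ J, a i := by rw [← Finset.sum_mul, mul_comm]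
  have h2 : ∀ ε : ι → ℤˣ, ∑ y, ν ε y * w ε y ≤ D ε * kf A t' (w ε) := by
    intro ε
    have hD0 : 0 ≤ D ε := Real.sqrt_nonneg _
    have hD1 : ‖m ε‖ ≤ D ε := by
      apply Real.le_sqrt_of_sq_le
      nlinarith [sq_nonneg T]
    have hD2 : T ≤ D ε := by
      apply Real.le_sqrt_of_sq_le
      nlinarith [sq_nonneg ‖m ε‖]
    have hTt : t' * T = t * ∑ i ∈ J, a i := by
      rw [hT]
      field_simp
    -- bound against each cost
    have h3 : ∀ c : P → ℝ, ∑ y, ν ε y * w ε y ≤ D ε * cst A t' (w ε) c := by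
      intro c
      set r : X → ℝ := w ε - ∑ p, c p • A p with hr
      have e1 : ∑ y, ν ε y * w ε y = ∑ p, c p * m ε p + ∑ y, ν ε y * r y := by
        have e2 : ∑ p, c p * m ε p = ∑ y, ν ε y * (∑ p, c p • A p) y := by
          simp only [hm', Finset.sum_apply, Pi.smul_apply, smul_eq_mul, Finset.mul_sum]
          rw [Finset.sum_comm]
          apply Finset.sum_congr rfl
          intro y _
          apply Finset.sum_congr rfl
          intro p _
          ring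
        rw [e2, ← Finset.sum_add_distrib]
        apply Finset.sum_congr rfl
        intro y _
        rw [hr, Pi.sub_apply]
        ring
      have e3 : ∑ p, c p * m ε p ≤ D ε * ∑ p, |c p| := by
        rw [Finset.mul_sum]
        apply Finset.sum_le_sum
        intro p _
        have h4 : |m ε p| ≤ D ε := by
          have := norm_le_pi_norm (m ε) p
          rw [Real.norm_eq_abs] at this
          linarith
        calc c p * m ε p ≤ |c p * m ε p| := le_abs_self _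
          _ = |c p| * |m ε p| := abs_mul _ _
          _ ≤ |c p| * D ε := by gcongr
          _ = _ := mul_comm _ _
      have e4 : ∑ y, ν ε y * r y ≤ D ε * (t' * ‖r‖) := by
        calc ∑ y, ν ε y * r y ≤ ∑ y, |ν ε y| * ‖r‖ := by
              apply Finset.sum_le_sum
              intro y _
              have h4 : |r y| ≤ ‖r‖ := by
                have := norm_le_pi_norm r y
                rwa [Real.norm_eq_abs] at this
              calc ν ε y * r y ≤ |ν ε y * r y| := le_abs_self _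
                _ = |ν ε y| * |r y| := abs_mul _ _
                _ ≤ |ν ε y| * ‖r‖ := by gcongr
          _ = (∑ y, |ν ε y|) * ‖r‖ := by rw [Finset.sum_mul]
          _ ≤ (t * ∑ i ∈ J, a i) * ‖r‖ := by
              have := hν1 ε
              gcongr
          _ = T * (t' * ‖r‖) := by rw [← hTt]; ring
          _ ≤ D ε * (t' * ‖r‖) := by gcongr
      rw [e1]
      calc ∑ p, c p * m ε p + ∑ y, ν ε y * r y ≤ D ε * ∑ p, |c p| + D ε * (t' * ‖r‖) :=
            add_le_add e3 e4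
        _ = D ε * cst A t' (w ε) c := by unfold cst; ring
    refine le_of_forall_pos_le_add fun δ hδ => ?_
    obtain ⟨c, hc⟩ := exists_lt A (t := t') (w ε) (δ := δ / (D ε + 1)) (by positivity)
    have h4 : D ε * cst A t' (w ε) c ≤ D ε * (kf A t' (w ε) + δ / (D ε + 1)) :=
      mul_le_mul_of_nonneg_left hc.le hD0
    have h5 : D ε * (δ / (D ε + 1)) ≤ δ := by
      rw [← mul_div_assoc, div_le_iff₀ (by positivity)]
      nlinarith
    have := h3 c
    linarith
  have h3 : S ≤ avg fun ε : ι → ℤˣ => D ε * kf A t' (w ε) := by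
    rw [← h1]
    exact avg_mono h2
  have h4 : S ^ 2 ≤ (avg fun ε : ι → ℤˣ => D ε ^ 2) *
      avg fun ε : ι → ℤˣ => kf A t' (w ε) ^ 2 := by
    refine le_trans ?_ (avg_mul_sq_le _ _)
    gcongr
  have h5 : (avg fun ε : ι → ℤˣ => D ε ^ 2) ≤ 45 * n * S := by
    have e1 : ∀ ε : ι → ℤˣ, D ε ^ 2 = ‖m ε‖ ^ 2 + T ^ 2 := by
      intro ε
      exact Real.sq_sqrt (by positivity)
    rw [avg_congr e1, avg_add, avg_const]
    have h6 := sup_type2 hn hP J (fun i => a i • u i)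
    have h7 : ∑ i ∈ J, ‖a i • u i‖ ^ 2 ≤ S := by
      apply Finset.sum_le_sum
      intro i _
      rw [norm_smul, Real.norm_of_nonneg (ha0 i)]
      have h8 : ‖u i‖ ≤ 1 := (pi_norm_le_iff_of_nonneg zero_le_one).2 fun p =>
        dual_atom A ht.le (hμ2 i) p
      have h9 : a i * ‖u i‖ ≤ a i := by
        have := mul_le_mul_of_nonneg_left h8 (ha0 i)
        linarith
      have h10 : 0 ≤ a i * ‖u i‖ := mul_nonneg (ha0 i) (norm_nonneg _)
      gcongr
    have h8 : T ^ 2 ≤ n * S := by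
      have h9 : (∑ i ∈ J, a i) ^ 2 ≤ J.card * S := sq_sum_le_card_mul_sum_sq
      have h10 : T ^ 2 = t ^ 2 * (∑ i ∈ J, a i) ^ 2 / t' ^ 2 := by
        rw [hT]
        field_simp
      rw [h10, div_le_iff₀ (by positivity)]
      calc t ^ 2 * (∑ i ∈ J, a i) ^ 2 ≤ t ^ 2 * (J.card * S) := by gcongr
        _ = (t ^ 2 * J.card) * S := by ring
        _ = (t' ^ 2 * n) * S := by rw [ht'2]
        _ = n * S * t' ^ 2 := by ring
    calc (avg fun ε : ι → ℤˣ => ‖m ε‖ ^ 2) + T ^ 2 ≤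
          44 * n * (∑ i ∈ J, ‖a i • u i‖ ^ 2) + n * S := add_le_add h6 h8
      _ ≤ 44 * n * S + n * S := by gcongr
      _ = _ := by ring
  rcases hS0.eq_or_lt with h0 | h0
  · rw [← h0]
    exact mul_nonneg (by positivity) (avg_nonneg fun _ => sq_nonneg _)
  · have h6 : 0 ≤ avg fun ε : ι → ℤˣ => kf A t' (w ε) ^ 2 := avg_nonneg fun _ => sq_nonneg _
    have h7 : S ^ 2 ≤ (45 * n * S) * avg fun ε : ι → ℤˣ => kf A t' (w ε) ^ 2 :=
      h4.trans (mul_le_mul_of_nonneg_right h5 h6)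
    have h8 : S * S ≤ S * (45 * n * avg fun ε : ι → ℤˣ => kf A t' (w ε) ^ 2) := by
      nlinarith
    exact le_of_mul_le_mul_left h8 h0

end Vale.Agent.P111.QL
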