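import Vale.Agent.P111.QL.Sup
import Mathlib.Analysis.Convex.Cone.Extension

set_option linter.all false

/-! The `K`-functional of an atomic norm and the supremum norm. -/

namespace Vale.Agent.P111.QL

open Finset

variable {X P : Type*} [Fintype X] [Fintype P]

/-- The cost of a decomposition. -/
noncomputable def cst (A : P → X → ℝ) (t : ℝ) (v : X → ℝ) (c : P → ℝ) : ℝ :=
  (∑ p, |c p|) + t * ‖v - ∑ p, c p • A p‖

/-- The `K`-functional `K(t, v)` of the couple (atomic norm with atoms `A p`, sup norm). -/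
noncomputable def kf (A : P → X → ℝ) (t : ℝ) (v : X → ℝ) : ℝ := ⨅ c : P → ℝ, cst A t v c

variable (A : P → X → ℝ) {t : ℝ}

theorem cst_nonneg (ht : 0 ≤ t) (v : X → ℝ) (c : P → ℝ) : 0 ≤ cst A t v c := by
  unfold cst
  have : 0 ≤ ∑ p, |c p| := Finset.sum_nonneg fun p _ => abs_nonneg _
  positivity

theorem kf_le (ht : 0 ≤ t) (v : X → ℝ) (c : P → ℝ) : kf A t v ≤ cst A t v c :=
  ciInf_le ⟨0, by rintro _ ⟨c, rfl⟩; exact cst_nonneg A ht v c⟩ c

theorem le_kf {v : X → ℝ} {b : ℝ} (h : ∀ c, b ≤ cst A t v c) : b ≤ kf A t v :=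
  le_ciInf h

theorem kf_nonneg (ht : 0 ≤ t) (v : X → ℝ) : 0 ≤ kf A t v := le_kf A fun c => cst_nonneg A ht v c

theorem exists_lt (v : X → ℝ) {δ : ℝ} (hδ : 0 < δ) : ∃ c, cst A t v c < kf A t v + δ :=
  exists_lt_of_ciInf_lt (by unfold kf; linarith)

theorem kf_le_sup (ht : 0 ≤ t) (v : X → ℝ) : kf A t v ≤ t * ‖v‖ := by
  refine (kf_le A ht v 0).trans (le_of_eq ?_)
  simp [cst]

theorem kf_zero (ht : 0 ≤ t) : kf A t 0 = 0 :=
  le_antisymm (by simpa using kf_le_sup A ht 0) (kf_nonneg A ht 0)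

theorem kf_add_le (ht : 0 ≤ t) (u v : X → ℝ) : kf A t (u + v) ≤ kf A t u + kf A t v := by
  refine le_of_forall_pos_le_add fun δ hδ => ?_
  obtain ⟨c, hc⟩ := exists_lt A (t := t) u (half_pos hδ)
  obtain ⟨d, hd⟩ := exists_lt A (t := t) v (half_pos hδ)
  have h1 := kf_le A ht (u + v) (c + d)
  have h2 : cst A t (u + v) (c + d) ≤ cst A t u c + cst A t v d := by
    unfold cst
    have e : u + v - ∑ p, (c + d) p • A p = (u - ∑ p, c p • A p) + (v - ∑ p, d p • A p) := by
      simp only [Pi.add_apply, add_smul, Finset.sum_add_distrib]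
      abel
    rw [e]
    have h3 := norm_add_le (u - ∑ p, c p • A p) (v - ∑ p, d p • A p)
    have h4 : ∑ p, |(c + d) p| ≤ ∑ p, |c p| + ∑ p, |d p| := by
      rw [← Finset.sum_add_distrib]
      exact Finset.sum_le_sum fun p _ => abs_add_le _ _
    nlinarith [mul_le_mul_of_nonneg_left h3 ht]
  linarith

theorem kf_smul_le (ht : 0 ≤ t) (a : ℝ) (v : X → ℝ) : kf A t (a • v) ≤ |a| * kf A t v := by
  refine le_of_forall_pos_le_add fun δ hδ => ?_
  obtain ⟨c, hc⟩ := exists_lt A (t := t) v (δ := δ / (|a| + 1)) (by positivity)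
  have h1 := kf_le A ht (a • v) (a • c)
  have h2 : cst A t (a • v) (a • c) = |a| * cst A t v c := by
    unfold cst
    have e : a • v - ∑ p, (a • c) p • A p = a • (v - ∑ p, c p • A p) := by
      rw [smul_sub, Finset.smul_sum]
      simp only [Pi.smul_apply, smul_assoc]
    rw [e, norm_smul, Real.norm_eq_abs]
    simp only [Pi.smul_apply, smul_eq_mul, abs_mul, ← Finset.mul_sum]
    ring
  have h3 : |a| * cst A t v c ≤ |a| * (kf A t v + δ / (|a| + 1)) :=
    mul_le_mul_of_nonneg_left hc.le (abs_nonneg _)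
  have h4 : |a| * (δ / (|a| + 1)) ≤ δ := by
    rw [← mul_div_assoc, div_le_iff₀ (by positivity)]
    nlinarith [abs_nonneg a]
  linarith

theorem kf_smul (ht : 0 ≤ t) (a : ℝ) (v : X → ℝ) : kf A t (a • v) = |a| * kf A t v := by
  rcases eq_or_ne a 0 with rfl | ha
  · simp [kf_zero A ht]
  apply le_antisymm (kf_smul_le A ht a v)
  have h := kf_smul_le A ht a⁻¹ (a • v)
  rw [smul_smul, inv_mul_cancel₀ ha, one_smul, abs_inv] at h
  have h2 : 0 < |a| := abs_pos.2 ha
  calc |a| * kf A t v ≤ |a| * (|a|⁻¹ * kf A t (a • v)) := by gcongr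
    _ = _ := by field_simp

theorem kf_mono {s : ℝ} (hs : 0 ≤ s) (hst : s ≤ t) (v : X → ℝ) : kf A s v ≤ kf A t v := by
  apply le_kf
  intro c
  refine (kf_le A hs v c).trans ?_
  unfold cst
  gcongr

theorem norm_sum_atoms_le (hA : ∀ p x, |A p x| ≤ 1) (c : P → ℝ) :
    ‖∑ p, c p • A p‖ ≤ ∑ p, |c p| := by
  refine (norm_sum_le _ _).trans (Finset.sum_le_sum fun p _ => ?_)
  rw [norm_smul, Real.norm_eq_abs]
  have : ‖A p‖ ≤ 1 := (pi_norm_le_iff_of_nonneg zero_le_one).2 fun x => hA p x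
  calc |c p| * ‖A p‖ ≤ |c p| * 1 := by gcongr
    _ = _ := mul_one _

theorem norm_le_kf_one (hA : ∀ p x, |A p x| ≤ 1) (v : X → ℝ) : ‖v‖ ≤ kf A 1 v := by
  apply le_kf
  intro c
  unfold cst
  have h1 := norm_sum_atoms_le A hA c
  have h2 : ‖v‖ ≤ ‖v - ∑ p, c p • A p‖ + ‖∑ p, c p • A p‖ := by
    have := norm_add_le (v - ∑ p, c p • A p) (∑ p, c p • A p)
    simpa using this
  linarith

theorem kf_atom_le_one (ht : 0 ≤ t) (p : P) : kf A t (A p) ≤ 1 := by
  classical
  refine (kf_le A ht (A p) (Pi.single p 1)).trans (le_of_eq ?_)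
  unfold cst
  have e1 : ∑ q, |(Pi.single p (1:ℝ) : P → ℝ) q| = 1 := by
    rw [Finset.sum_eq_single p]
    · simp
    · intro q _ hq
      simp [Pi.single_eq_of_ne hq]
    · simp
  have e2 : ∑ q, (Pi.single p (1:ℝ) : P → ℝ) q • A q = A p := by
    rw [Finset.sum_eq_single p]
    · simp
    · intro q _ hq
      simp [Pi.single_eq_of_ne hq]
    · simp
  rw [e1, e2]
  simp

theorem kf_atom_le (hA : ∀ p x, |A p x| ≤ 1) (ht : 0 ≤ t) (p : P) : kf A t (A p) ≤ min 1 t := by
  apply le_min (kf_atom_le_one A ht p)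
  refine (kf_le_sup A ht _).trans ?_
  have : ‖A p‖ ≤ 1 := (pi_norm_le_iff_of_nonneg zero_le_one).2 fun x => hA p x
  nlinarith

/-- The atomic norm bound, when all unit vectors are atoms. -/
theorem kf_le_sum [DecidableEq X] (e : X → P) (he : ∀ x, A (e x) = Pi.single x 1) (ht : 0 ≤ t)
    (v : X → ℝ) : kf A t v ≤ ∑ x, |v x| := by
  have h1 : ∀ s : Finset X, kf A t (∑ x ∈ s, v x • A (e x)) ≤ ∑ x ∈ s, |v x| := by
    intro s
    induction s using Finset.induction_on with
    | empty => simp [kf_zero A ht]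
    | insert a s ha ih =>
      rw [Finset.sum_insert ha, Finset.sum_insert ha]
      refine (kf_add_le A ht _ _).trans (add_le_add ?_ ih)
      rw [kf_smul A ht]
      calc |v a| * kf A t (A (e a)) ≤ |v a| * 1 := by
            gcongr
            exact kf_atom_le_one A ht _
        _ = _ := mul_one _
  have h2 : ∑ x, v x • A (e x) = v := by
    ext y
    simp [he, Finset.sum_apply, Pi.single_apply]
  have := h1 Finset.univ
  rwa [h2] at this

/-- Duality for the `K`-functional. -/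
theorem exists_dual [DecidableEq X] (ht : 0 ≤ t) (v : X → ℝ) :
    ∃ μ : X → ℝ, ∑ x, μ x * v x = kf A t v ∧ (∀ w : X → ℝ, ∑ x, μ x * w x ≤ kf A t w) := by
  obtain ⟨g, hg1, hg2⟩ : ∃ g : (X → ℝ) →ₗ[ℝ] ℝ, g v = kf A t v ∧ ∀ w, g w ≤ kf A t w := by
    rcases eq_or_ne v 0 with rfl | hv
    · refine ⟨0, ?_, ?_⟩
      · simp [kf_zero A ht]
      · intro w
        simpa using kf_nonneg A ht w
    · let f : (X → ℝ) →ₗ.[ℝ] ℝ := LinearPMap.mkSpanSingleton v (kf A t v) hv
      obtain ⟨g, hg1, hg2⟩ := exists_extension_of_le_sublinear f (kf A t)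
        (by
          intro c hc x
          rw [kf_smul A ht, abs_of_pos hc])
        (fun x y => kf_add_le A ht x y)
        (by
          rintro ⟨x, hx⟩
          obtain ⟨a, rfl⟩ := Submodule.mem_span_singleton.1 hx
          have e : f ⟨a • v, hx⟩ = a • kf A t v :=
            LinearPMap.mkSpanSingleton'_apply v (kf A t v) _ a hx
          rw [e]
          simp only [smul_eq_mul]
          rw [kf_smul A ht]
          exact mul_le_mul_of_nonneg_right (le_abs_self a) (kf_nonneg A ht v))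
      refine ⟨g, ?_, hg2⟩
      have hvm : v ∈ f.domain := Submodule.mem_span_singleton_self v
      have h1 := hg1 ⟨v, hvm⟩
      simp only at h1
      rw [h1]
      have e : f ⟨(1:ℝ) • v, by rw [one_smul]; exact hvm⟩ = (1:ℝ) • kf A t v :=
        LinearPMap.mkSpanSingleton'_apply v (kf A t v) _ 1 _
      simpa using e
  refine ⟨fun x => g (Pi.single x 1), ?_, ?_⟩
  · rw [← hg1]
    conv_rhs => rw [← Finset.univ_sum_single v, map_sum]
    apply Finset.sum_congr rfl
    intro x _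
    have e : (Pi.single x (v x) : X → ℝ) = v x • Pi.single x (1:ℝ) := by
      rw [← Pi.single_smul, smul_eq_mul, mul_one]
    rw [e, map_smul, smul_eq_mul, mul_comm]
  · intro w
    refine le_trans (le_of_eq ?_) (hg2 w)
    conv_rhs => rw [← Finset.univ_sum_single w, map_sum]
    apply Finset.sum_congr rfl
    intro x _
    have e : (Pi.single x (w x) : X → ℝ) = w x • Pi.single x (1:ℝ) := by
      rw [← Pi.single_smul, smul_eq_mul, mul_one]
    rw [e, map_smul, smul_eq_mul, mul_comm]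

theorem dual_atom {μ : X → ℝ} (ht : 0 ≤ t) (h : ∀ w : X → ℝ, ∑ x, μ x * w x ≤ kf A t w) (p : P) :
    |∑ x, μ x * A p x| ≤ 1 := by
  have h1 := (h (A p)).trans (kf_atom_le_one A ht p)
  have h2 := h (-(A p))
  have h3 : kf A t (-(A p)) = kf A t (A p) := by
    have := kf_smul A ht (-1) (A p)
    simpa using this
  rw [h3] at h2
  have h4 := h2.trans (kf_atom_le_one A ht p)
  have h5 : ∑ x, μ x * (-(A p)) x = - ∑ x, μ x * A p x := by
    rw [← Finset.sum_neg_distrib]
    apply Finset.sum_congr rfl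
    intro x _
    simp
  rw [h5] at h4
  exact abs_le.2 ⟨by linarith, h1⟩

theorem dual_l1 {μ : X → ℝ} (ht : 0 ≤ t) (h : ∀ w : X → ℝ, ∑ x, μ x * w x ≤ kf A t w) :
    ∑ x, |μ x| ≤ t := by
  have h1 := (h (fun x => SignType.sign (μ x))).trans (kf_le_sup A ht _)
  have h2 : ‖(fun x => (SignType.sign (μ x) : ℝ))‖ ≤ 1 := by
    refine (pi_norm_le_iff_of_nonneg zero_le_one).2 fun x => ?_
    rw [Real.norm_eq_abs]
    rcases lt_trichotomy (μ x) 0 with h | h | h
    · simp [sign_neg h]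
    · simp [h]
    · simp [sign_pos h]
  have h3 : ∑ x, μ x * (SignType.sign (μ x) : ℝ) = ∑ x, |μ x| := by
    apply Finset.sum_congr rfl
    intro x _
    rw [self_mul_sign]
  rw [h3] at h1
  nlinarith

end Vale.Agent.P111.QL
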