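import Vale.Agent.P111.QL.Space

set_option linter.all false

/-! The quantitative lower bounds. -/

namespace Vale.Agent.P111.QL

open Finset

theorem CotypeWith.mono {q C C' : ℝ} {Y : Type*} [NormedAddCommGroup Y] [NormedSpace ℝ Y]
    (h : CotypeWith q C Y) (hC : C ≤ C') : CotypeWith q C' Y := by
  intro n y
  refine (h n y).trans (mul_le_mul_of_nonneg_right hC ?_)
  exact Real.rpow_nonneg (avg_nonneg fun _ => sq_nonneg _) _

theorem wc_pos {B φ q : ℝ} (hB : 0 < B) (hq : 2 / (1 - φ) < q) : 0 < wc B φ q := by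
  unfold wc
  have hr1 : (2:ℝ) ^ (2 / (1 - φ) - q) < 1 :=
    Real.rpow_lt_one_of_one_lt_of_neg (by norm_num) (by linarith)
  have : 0 < 1 - (2:ℝ) ^ (2 / (1 - φ) - q) := by linarith
  positivity

theorem finrank_sp (n : ℕ) (θ : Set.Ioo (0:ℝ) 1) : Module.finrank ℝ (Sp (atoms n) θ) = 2 ^ n := by
  have e : Module.finrank ℝ (Sp (atoms n) θ) = Module.finrank ℝ ((Fin n → ℤˣ) → ℝ) := rfl
  rw [e, Module.finrank_fintype_fun_eq_card]
  simp

theorem part1 (q r : ℝ) (hq : 2 ≤ q) (hr : 2 ≤ r) (hqr : 1 / q + 1 / r < 1 / 2) :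
    ∃ C : ℝ, 0 < C ∧ ∀ n : ℕ, 1 ≤ n →
      ∃ (E : Type) (_ : NormedAddCommGroup E) (_ : NormedSpace ℝ E),
        FiniteDimensional ℝ E ∧ Module.finrank ℝ E = 2 ^ n ∧
        CotypeWith q (C * (n : ℝ) ^ (1 / q)) E ∧
        CotypeWith r (C * (n : ℝ) ^ (1 / r)) (E →L[ℝ] ℝ) ∧
        ∀ K : ℝ, KConvexWith K E → √n ≤ C * K := by
  have hq0 : 0 < q := by linarith
  have hr0 : 0 < r := by linarith
  have h1 : 0 < 1 / q := by positivity
  have h2 : 0 < 1 / r := by positivity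
  set t : ℝ := (2 * (1 / r) + 1 - 2 * (1 / q)) / 2 with ht
  have ht0 : 0 < t := by rw [ht]; linarith
  have ht1 : t < 1 := by rw [ht]; linarith
  let θ : Set.Ioo (0:ℝ) 1 := ⟨t, ht0, ht1⟩
  have hθ : θ.1 = t := rfl
  have hqθ : 2 / (1 - t) < q := by
    rw [div_lt_iff₀ (by linarith)]
    have h3 : 2 * (1 / q) < 1 - t := by rw [ht]; linarith
    calc 2 = q * (2 * (1 / q)) := by field_simp
      _ < q * (1 - t) := by gcongr
  have hrθ : 2 / t < r := by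
    rw [div_lt_iff₀ ht0]
    have h3 : 2 * (1 / r) < t := by rw [ht]; linarith
    calc 2 = r * (2 * (1 / r)) := by field_simp
      _ < r * t := by gcongr
  have hrθ' : 2 / (1 - (1 - t)) < r := by rwa [sub_sub_cancel]
  set c1 : ℝ := (wc 180 t q) ^ (1 / q) with hc1
  set c2 : ℝ := (wc 1408 (1 - t) r) ^ (1 / r) with hc2
  set c3 : ℝ := √(3 * dd ((2:ℝ) ^ (-t))) with hc3
  have hp1 : 0 < c1 := Real.rpow_pos_of_pos (wc_pos (by norm_num) hqθ) _
  have hp2 : 0 < c2 := Real.rpow_pos_of_pos (wc_pos (by norm_num) hrθ') _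
  have hp3 : 0 ≤ c3 := Real.sqrt_nonneg _
  refine ⟨c1 + c2 + c3, by positivity, fun n hn => ?_⟩
  refine ⟨Sp (atoms n) θ, inferInstance, inferInstance, inferInstance, finrank_sp n θ, ?_, ?_, ?_⟩
  · refine CotypeWith.mono (sp_cotypeWith (atoms n) θ hn (card_atoms hn) hq0 hqθ) ?_
    have : 0 ≤ (n:ℝ) ^ (1 / q) := by positivity
    rw [hθ, ← hc1]
    nlinarith
  · refine CotypeWith.mono (sp_dual_cotypeWith (atoms n) θ hn (card_cube n) hr0 hrθ) ?_
    have : 0 ≤ (n:ℝ) ^ (1 / r) := by positivity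
    rw [hθ, ← hc2]
    nlinarith
  · intro K hK
    have h3 := rad_bound hn θ hK
    rw [hθ, ← hc3] at h3
    have hK0 : 0 ≤ K := by
      by_contra hneg
      push Not at hneg
      have h4 : 0 < √(n:ℝ) := Real.sqrt_pos.2 (by exact_mod_cast hn)
      nlinarith
    nlinarith [mul_nonneg hp1.le hK0, mul_nonneg hp2.le hK0]

theorem part2 (q r : ℝ) (hq : 2 ≤ q) (hr : 2 ≤ r) (hqr : 1 / q + 1 / r < 1 / 2) (A b : ℝ)
    (hb : b * (1 / q + 1 / r) < 1 / 2) :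
    ∃ (E : Type) (_ : NormedAddCommGroup E) (_ : NormedSpace ℝ E) (c d : ℝ),
      FiniteDimensional ℝ E ∧ 1 ≤ c ∧ 1 ≤ d ∧ CotypeWith q c E ∧
      CotypeWith r d (E →L[ℝ] ℝ) ∧ ∀ K : ℝ, KConvexWith K E → A * (c * d) ^ b < K := by
  obtain ⟨C, hC, h⟩ := part1 q r hq hr hqr
  have hq0 : 0 < q := by linarith
  have hr0 : 0 < r := by linarith
  set s : ℝ := 1 / q + 1 / r with hs
  have hexp : 0 < 1 / 2 - b * s := by linarith
  -- choose `n`
  have hlim := (tendsto_rpow_atTop hexp).comp (tendsto_natCast_atTop_atTop (R := ℝ))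
  obtain ⟨n, hn1, hn⟩ := ((hlim.eventually_gt_atTop ((C + 1) * (|A| * (((C + 1) ^ 2) ^ b)))).and
    (Filter.eventually_ge_atTop 1)).exists
  simp only [Function.comp] at hn1
  obtain ⟨E, i1, i2, hfin, -, hE1, hE2, hE3⟩ := h n hn
  have hn0 : (0:ℝ) < n := by exact_mod_cast hn
  have hn1' : (1:ℝ) ≤ n := by exact_mod_cast hn
  have hnq : 1 ≤ (n:ℝ) ^ (1 / q) := Real.one_le_rpow hn1' (by positivity)
  have hnr : 1 ≤ (n:ℝ) ^ (1 / r) := Real.one_le_rpow hn1' (by positivity)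
  refine ⟨E, i1, i2, (C + 1) * (n:ℝ) ^ (1 / q), (C + 1) * (n:ℝ) ^ (1 / r), hfin, by nlinarith,
    by nlinarith, CotypeWith.mono hE1 (by nlinarith), CotypeWith.mono hE2 (by nlinarith), ?_⟩
  intro K hK
  have h3 := hE3 K hK
  by_contra hneg
  push Not at hneg
  have e1 : (C + 1) * (n:ℝ) ^ (1 / q) * ((C + 1) * (n:ℝ) ^ (1 / r)) =
      (C + 1) ^ 2 * (n:ℝ) ^ s := by
    rw [hs, Real.rpow_add hn0]
    ring
  rw [e1, Real.mul_rpow (by positivity) (by positivity), ← Real.rpow_mul hn0.le] at hneg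
  set Z : ℝ := ((C + 1) ^ 2) ^ b with hZ
  have hZ0 : 0 < Z := by positivity
  have hnb : 0 < (n:ℝ) ^ (s * b) := by positivity
  have h4 : K ≤ |A| * (Z * (n:ℝ) ^ (s * b)) := by
    refine hneg.trans ?_
    gcongr
    exact le_abs_self A
  have h5 : √(n:ℝ) ≤ (C + 1) * (|A| * (Z * (n:ℝ) ^ (s * b))) := by
    have h6 : C * K ≤ C * (|A| * (Z * (n:ℝ) ^ (s * b))) := by gcongr
    have h7 : 0 ≤ |A| * (Z * (n:ℝ) ^ (s * b)) := by positivity
    nlinarith
  have e2 : √(n:ℝ) = (n:ℝ) ^ (1 / 2 - b * s) * (n:ℝ) ^ (s * b) := by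
    rw [← Real.rpow_add hn0, Real.sqrt_eq_rpow]
    congr 1
    ring
  rw [e2] at h5
  have h6 : (n:ℝ) ^ (1 / 2 - b * s) * (n:ℝ) ^ (s * b) ≤
      ((C + 1) * (|A| * Z)) * (n:ℝ) ^ (s * b) := by
    calc _ ≤ _ := h5
      _ = _ := by ring
  have h7 := le_of_mul_le_mul_right h6 hnb
  linarith

theorem wc_half_le {B q : ℝ} (hB : 1 ≤ B) (hq : 5 ≤ q) :
    (wc B (1 / 2) q) ^ (1 / q) ≤ 32 * B ^ 2 := by
  have h1 : wc B (1 / 2) q ≤ 32 * B ^ 2 := by
    unfold wc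
    have e1 : (1:ℝ) / (1 - 1 / 2) = 2 := by norm_num
    have e2 : (2:ℝ) / (1 - 1 / 2) = 4 := by norm_num
    rw [e1, e2]
    have e3 : B ^ (2:ℝ) = B ^ 2 := Real.rpow_two B
    have e4 : (2:ℝ) ^ (4:ℝ) = 16 := by norm_num
    rw [e3, e4]
    have h2 : (2:ℝ) ^ (4 - q) ≤ 1 / 2 := by
      calc (2:ℝ) ^ (4 - q) ≤ (2:ℝ) ^ (-1:ℝ) :=
            Real.rpow_le_rpow_of_exponent_le (by norm_num) (by linarith)
        _ = 1 / 2 := by rw [Real.rpow_neg_one]; norm_num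
    rw [div_le_iff₀ (by linarith)]
    nlinarith [sq_nonneg B]
  have h0 : 0 ≤ wc B (1 / 2) q := (wc_pos (by linarith) (by norm_num; linarith)).le
  have h2 : (1:ℝ) ≤ 32 * B ^ 2 := by nlinarith
  calc (wc B (1 / 2) q) ^ (1 / q) ≤ (32 * B ^ 2) ^ (1 / q) :=
        Real.rpow_le_rpow h0 h1 (by positivity)
    _ ≤ (32 * B ^ 2) ^ (1:ℝ) := by
        apply Real.rpow_le_rpow_of_exponent_le h2
        rw [div_le_one (by linarith)]
        linarith
    _ = _ := Real.rpow_one _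

theorem part3 : ∃ C : ℝ, 0 < C ∧ ∀ q : ℝ, 5 ≤ q →
    ∃ (E : Type) (_ : NormedAddCommGroup E) (_ : NormedSpace ℝ E),
      FiniteDimensional ℝ E ∧ CotypeWith q C E ∧ CotypeWith q C (E →L[ℝ] ℝ) ∧
      ∀ K : ℝ, KConvexWith K E → Real.exp (q / 2) ≤ C * K := by
  let θ : Set.Ioo (0:ℝ) 1 := ⟨1 / 2, by norm_num, by norm_num⟩
  have hθ : θ.1 = 1 / 2 := rfl
  set c3 : ℝ := √(3 * dd ((2:ℝ) ^ (-(1 / 2 : ℝ)))) with hc3
  have hp3 : 0 ≤ c3 := Real.sqrt_nonneg _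
  set M : ℝ := 32 * (1408:ℝ) ^ 2 * 6 with hM
  have hM0 : 0 < M := by positivity
  refine ⟨M + c3, by positivity, fun q hq => ?_⟩
  have hq0 : 0 < q := by linarith
  set n : ℕ := ⌈Real.exp q⌉₊ with hn
  have hexp1 : 1 ≤ Real.exp q := Real.one_le_exp hq0.le
  have hn1 : 1 ≤ n := by
    rw [hn]
    exact Nat.one_le_iff_ne_zero.2 (Nat.ceil_pos.2 (by positivity)).ne'
  have hnle : (n:ℝ) ≤ 2 * Real.exp q := by
    have := (Nat.ceil_lt_add_one (Real.exp_pos q).le).le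
    rw [← hn] at this
    linarith
  have hnge : Real.exp q ≤ n := Nat.le_ceil _
  have hnq : (n:ℝ) ^ (1 / q) ≤ 6 := by
    calc (n:ℝ) ^ (1 / q) ≤ (2 * Real.exp q) ^ (1 / q) :=
          Real.rpow_le_rpow (by positivity) hnle (by positivity)
      _ = 2 ^ (1 / q) * Real.exp 1 := by
          rw [Real.mul_rpow (by norm_num) (by positivity), ← Real.exp_mul,
            mul_one_div_cancel hq0.ne']
      _ ≤ 2 ^ (1:ℝ) * 3 := by
          have h1 : (2:ℝ) ^ (1 / q) ≤ 2 ^ (1:ℝ) := by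
            apply Real.rpow_le_rpow_of_exponent_le (by norm_num)
            rw [div_le_one (by linarith)]
            linarith
          have h2 := Real.exp_one_lt_three.le
          gcongr
      _ = 6 := by norm_num
  have hnq0 : 0 ≤ (n:ℝ) ^ (1 / q) := by positivity
  refine ⟨Sp (atoms n) θ, inferInstance, inferInstance, inferInstance, ?_, ?_, ?_⟩
  · refine CotypeWith.mono (sp_cotypeWith (atoms n) θ hn1 (card_atoms hn1) hq0
      (by rw [hθ]; norm_num; linarith)) ?_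
    rw [hθ]
    have h1 := wc_half_le (B := 180) (by norm_num) hq
    have h2 : (wc 180 (1 / 2) q) ^ (1 / q) * (n:ℝ) ^ (1 / q) ≤ (32 * 180 ^ 2) * 6 := by gcongr
    refine h2.trans ?_
    rw [hM]
    norm_num
    linarith
  · refine CotypeWith.mono (sp_dual_cotypeWith (atoms n) θ hn1 (card_cube n) hq0
      (by rw [hθ]; norm_num; linarith)) ?_
    rw [hθ, show (1:ℝ) - 1 / 2 = 1 / 2 by norm_num]
    have h1 := wc_half_le (B := 1408) (by norm_num) hq
    have h2 : (wc 1408 (1 / 2) q) ^ (1 / q) * (n:ℝ) ^ (1 / q) ≤ (32 * 1408 ^ 2) * 6 := by gcongr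
    refine h2.trans ?_
    rw [hM]
    linarith
  · intro K hK
    have h3 := rad_bound hn1 θ hK
    rw [hθ, ← hc3] at h3
    have h4 : 0 < √(n:ℝ) := Real.sqrt_pos.2 (by exact_mod_cast hn1)
    have hK0 : 0 ≤ K := by
      by_contra hneg
      push Not at hneg
      nlinarith
    have h5 : Real.exp (q / 2) ≤ √(n:ℝ) := by
      apply Real.le_sqrt_of_sq_le
      rw [← Real.exp_nat_mul]
      have e : ((2:ℕ):ℝ) * (q / 2) = q := by push_cast; ring
      rw [e]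
      exact hnge
    nlinarith [mul_nonneg hM0.le hK0]

end Vale.Agent.P111.QL
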