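import Vale.Agent.P111.QL.Ineq
import Mathlib.Analysis.MeanInequalities

set_option linter.all false

/-! The real interpolation norm. -/

namespace Vale.Agent.P111.QL

open Finset

theorem minkowski {κ : Type*} {f g : κ → ℝ} (hf : ∀ i, 0 ≤ f i) (hg : ∀ i, 0 ≤ g i)
    (hfs : Summable fun i => f i ^ 2) (hgs : Summable fun i => g i ^ 2) :
    (Summable fun i => (f i + g i) ^ 2) ∧
      √(∑' i, (f i + g i) ^ 2) ≤ √(∑' i, f i ^ 2) + √(∑' i, g i ^ 2) := by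
  have h := Real.Lp_add_le_tsum_of_nonneg (p := 2) (by norm_num) hf hg
    (by simpa only [Real.rpow_two] using hfs) (by simpa only [Real.rpow_two] using hgs)
  simp only [Real.rpow_two] at h
  simpa only [Real.sqrt_eq_rpow] using h

theorem summable_int_of_le {F : ℤ → ℝ} (h0 : ∀ a, 0 ≤ F a) {C C' r r' : ℝ} (hr : 0 ≤ r)
    (hr1 : r < 1) (hr' : 0 ≤ r') (hr1' : r' < 1) (h1 : ∀ k : ℕ, F k ≤ C * r ^ k)
    (h2 : ∀ k : ℕ, F (-k) ≤ C' * r' ^ k) : Summable F := by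
  apply Summable.of_nat_of_neg
  · exact Summable.of_nonneg_of_le (fun k => h0 _) h1
      ((summable_geometric_of_lt_one hr hr1).mul_left C)
  · exact Summable.of_nonneg_of_le (fun k => h0 _) h2
      ((summable_geometric_of_lt_one hr' hr1').mul_left C')

theorem hasSum_avg {Ω κ : Type*} [Fintype Ω] {F : Ω → κ → ℝ} (h : ∀ ω, Summable (F ω)) :
    (Summable fun a => avg fun ω => F ω a) ∧
      ∑' a, (avg fun ω => F ω a) = avg fun ω => ∑' a, F ω a := by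
  have h1 : HasSum (fun a => avg fun ω => F ω a) (avg fun ω => ∑' a, F ω a) := by
    unfold avg
    simp only [smul_eq_mul]
    exact (hasSum_sum fun ω _ => (h ω).hasSum).mul_left _
  exact ⟨h1.summable, h1.tsum_eq⟩

variable {X P : Type*} [Fintype X] [Fintype P]

/-- The square of the interpolation norm. -/
noncomputable def nsq (A : P → X → ℝ) (ρ : ℝ) (v : X → ℝ) : ℝ :=
  ∑' a : ℤ, (ρ ^ a * kf A ((2 : ℝ) ^ a) v) ^ 2

/-- The data of the construction. -/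
structure Good (A : P → X → ℝ) : Prop where
  abs_le : ∀ p x, |A p x| ≤ 1
  unit : ∃ e : X → P, ∀ x y, (x = y → A (e x) y = 1) ∧ (x ≠ y → A (e x) y = 0)

variable {A : P → X → ℝ} (hA : Good A) {ρ : ℝ}

include hA in
theorem Good.kf_le_sum {t : ℝ} (ht : 0 ≤ t) (v : X → ℝ) : kf A t v ≤ ∑ x, |v x| := by
  classical
  obtain ⟨e, he⟩ := hA.unit
  refine QL.kf_le_sum A e (fun x => ?_) ht v
  ext y
  rw [Pi.single_apply]
  split_ifs with h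
  · exact (he x y).1 h.symm
  · exact (he x y).2 (Ne.symm h)

include hA in
theorem Good.summable (h1 : 1 / 2 < ρ) (h2 : ρ < 1) (v : X → ℝ) :
    Summable fun a : ℤ => (ρ ^ a * kf A ((2 : ℝ) ^ a) v) ^ 2 := by
  have hρ : 0 < ρ := by linarith
  have hr' : 1 / (2 * ρ) < 1 := by
    rw [div_lt_one (by linarith)]
    linarith
  have hr0 : 0 < 1 / (2 * ρ) := by positivity
  refine summable_int_of_le (C := (∑ x, |v x|) ^ 2) (C' := ‖v‖ ^ 2) (r := ρ ^ 2)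
    (r' := (1 / (2 * ρ)) ^ 2) (fun a => sq_nonneg _) (by positivity) (by nlinarith)
    (by positivity) (by nlinarith) ?_ ?_
  · intro k
    have h3 := hA.kf_le_sum (t := (2:ℝ) ^ (k:ℤ)) (by positivity) v
    have h4 := kf_nonneg A (t := (2:ℝ) ^ (k:ℤ)) (by positivity) v
    rw [mul_pow, mul_comm]
    have e : (ρ ^ (k:ℤ)) ^ 2 = (ρ ^ 2) ^ k := by
      rw [zpow_natCast, ← pow_mul, ← pow_mul, mul_comm]
    rw [e]
    gcongr
  · intro k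
    have h3 := kf_le_sup A (t := (2:ℝ) ^ (-(k:ℤ))) (by positivity) v
    have h4 := kf_nonneg A (t := (2:ℝ) ^ (-(k:ℤ))) (by positivity) v
    have h5 : ρ ^ (-(k:ℤ)) * kf A ((2 : ℝ) ^ (-(k:ℤ))) v ≤ (1 / (2 * ρ)) ^ k * ‖v‖ := by
      calc ρ ^ (-(k:ℤ)) * kf A ((2 : ℝ) ^ (-(k:ℤ))) v ≤
            ρ ^ (-(k:ℤ)) * ((2:ℝ) ^ (-(k:ℤ)) * ‖v‖) := by gcongr
        _ = (1 / (2 * ρ)) ^ k * ‖v‖ := by
            rw [zpow_neg, zpow_neg, zpow_natCast, zpow_natCast, div_pow, one_pow, mul_pow]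
            field_simp
    have h6 : 0 ≤ ρ ^ (-(k:ℤ)) * kf A ((2 : ℝ) ^ (-(k:ℤ))) v := by positivity
    calc (ρ ^ (-(k:ℤ)) * kf A ((2 : ℝ) ^ (-(k:ℤ))) v) ^ 2 ≤ ((1 / (2 * ρ)) ^ k * ‖v‖) ^ 2 := by
          gcongr
      _ = ‖v‖ ^ 2 * ((1 / (2 * ρ)) ^ 2) ^ k := by
          rw [mul_pow, ← pow_mul, ← pow_mul]
          ring

theorem nsq_nonneg (v : X → ℝ) : 0 ≤ nsq A ρ v := tsum_nonneg fun a => sq_nonneg _

include hA in
theorem Good.norm_sq_le (h1 : 1 / 2 < ρ) (h2 : ρ < 1) (v : X → ℝ) : ‖v‖ ^ 2 ≤ nsq A ρ v := by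
  have h := (hA.summable h1 h2 v).le_tsum 0 (fun a _ => sq_nonneg _)
  refine le_trans ?_ h
  simp only [zpow_zero, one_mul]
  have := norm_le_kf_one A hA.abs_le v
  gcongr

include hA in
theorem Good.sqrt_add_le (h1 : 1 / 2 < ρ) (h2 : ρ < 1) (u v : X → ℝ) :
    √(nsq A ρ (u + v)) ≤ √(nsq A ρ u) + √(nsq A ρ v) := by
  have hρ : 0 < ρ := by linarith
  have hk : ∀ (a : ℤ) (w : X → ℝ), 0 ≤ ρ ^ a * kf A ((2 : ℝ) ^ a) w := by
    intro a w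
    have := kf_nonneg A (t := (2:ℝ) ^ a) (by positivity) w
    positivity
  obtain ⟨h3, h4⟩ := minkowski (f := fun a : ℤ => ρ ^ a * kf A ((2 : ℝ) ^ a) u)
    (g := fun a : ℤ => ρ ^ a * kf A ((2 : ℝ) ^ a) v) (fun a => hk a u) (fun a => hk a v)
    (hA.summable h1 h2 u) (hA.summable h1 h2 v)
  refine le_trans (Real.sqrt_le_sqrt ?_) h4
  unfold nsq
  refine (hA.summable h1 h2 (u + v)).tsum_le_tsum (fun a => ?_) h3
  have h5 : ρ ^ a * kf A ((2 : ℝ) ^ a) (u + v) ≤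
      ρ ^ a * kf A ((2 : ℝ) ^ a) u + ρ ^ a * kf A ((2 : ℝ) ^ a) v := by
    rw [← mul_add]
    have := kf_add_le A (t := (2:ℝ) ^ a) (by positivity) u v
    gcongr
  have := hk a (u + v)
  gcongr

theorem nsq_smul (c : ℝ) (v : X → ℝ) : nsq A ρ (c • v) = c ^ 2 * nsq A ρ v := by
  unfold nsq
  rw [← tsum_mul_left]
  apply tsum_congr
  intro a
  rw [kf_smul A (by positivity)]
  calc (ρ ^ a * (|c| * kf A (2 ^ a) v)) ^ 2 = |c| ^ 2 * (ρ ^ a * kf A (2 ^ a) v) ^ 2 := by ring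
    _ = _ := by rw [sq_abs]

/-- Change of scale. -/
theorem Good.scale (hA : Good A) {θ : ℝ} (hθ0 : 0 < θ) (hθ1 : θ < 1) {s : ℝ} (hs : 0 < s)
    (v : X → ℝ) :
    (Summable fun a : ℤ => (((2:ℝ) ^ (-θ)) ^ a * kf A ((2 : ℝ) ^ a * s) v) ^ 2) ∧
    ∑' a : ℤ, (((2:ℝ) ^ (-θ)) ^ a * kf A ((2 : ℝ) ^ a * s) v) ^ 2 ≤
      4 * s ^ (2 * θ) * nsq A ((2:ℝ) ^ (-θ)) v := by
  set ρ : ℝ := (2:ℝ) ^ (-θ) with hρdef
  have hρ0 : 0 < ρ := by positivity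
  have hρ1 : 1 / 2 < ρ := by
    have : (2:ℝ) ^ (-(1:ℝ)) < (2:ℝ) ^ (-θ) :=
      Real.rpow_lt_rpow_of_exponent_lt (by norm_num) (by linarith)
    rw [Real.rpow_neg_one] at this
    rw [hρdef]
    linarith
  have hρ2 : ρ < 1 := Real.rpow_lt_one_of_one_lt_of_neg (by norm_num) (by linarith)
  obtain ⟨m, hm1, hm2⟩ := exists_mem_Ioc_zpow hs (by norm_num : (1:ℝ) < 2)
  have hsum := hA.summable hρ1 hρ2 v
  have hsum2 : Summable fun a : ℤ =>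
      (ρ ^ (-(m + 1))) ^ 2 * (ρ ^ (a + (m + 1)) * kf A ((2 : ℝ) ^ (a + (m + 1))) v) ^ 2 := by
    apply Summable.mul_left
    exact ((Equiv.addRight (m + 1)).summable_iff (f := fun a : ℤ =>
      (ρ ^ a * kf A ((2 : ℝ) ^ a) v) ^ 2)).2 hsum
  have hle : ∀ a : ℤ, (ρ ^ a * kf A ((2 : ℝ) ^ a * s) v) ^ 2 ≤
      (ρ ^ (-(m + 1))) ^ 2 * (ρ ^ (a + (m + 1)) * kf A ((2 : ℝ) ^ (a + (m + 1))) v) ^ 2 := by
    intro a
    rw [← mul_pow]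
    have e : ρ ^ (-(m + 1)) * (ρ ^ (a + (m + 1)) * kf A ((2 : ℝ) ^ (a + (m + 1))) v) =
        ρ ^ a * kf A ((2 : ℝ) ^ (a + (m + 1))) v := by
      rw [← mul_assoc, ← zpow_add₀ hρ0.ne']
      congr 2
      ring
    rw [e]
    have h1 : kf A ((2 : ℝ) ^ a * s) v ≤ kf A ((2 : ℝ) ^ (a + (m + 1))) v := by
      apply kf_mono A (by positivity)
      rw [zpow_add₀ (by norm_num : (2:ℝ) ≠ 0)]
      gcongr
    have h2 := kf_nonneg A (t := (2 : ℝ) ^ a * s) (by positivity) v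
    gcongr
  have hsum3 := Summable.of_nonneg_of_le (fun a => sq_nonneg _) hle hsum2
  refine ⟨hsum3, ?_⟩
  refine (hsum3.tsum_le_tsum hle hsum2).trans ?_
  rw [tsum_mul_left]
  have e1 : ∑' a : ℤ, (ρ ^ (a + (m + 1)) * kf A ((2 : ℝ) ^ (a + (m + 1))) v) ^ 2 =
      nsq A ρ v :=
    (Equiv.addRight (m + 1)).tsum_eq (fun a : ℤ => (ρ ^ a * kf A ((2 : ℝ) ^ a) v) ^ 2)
  rw [e1]
  apply mul_le_mul_of_nonneg_right _ (nsq_nonneg v)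
  -- the constant
  have e2 : (ρ ^ (-(m + 1))) ^ 2 = (2:ℝ) ^ (2 * θ) * ((2:ℝ) ^ m) ^ (2 * θ) := by
    rw [hρdef, ← Real.rpow_mul_intCast (by norm_num), ← Real.rpow_natCast,
      ← Real.rpow_mul (by norm_num), ← Real.rpow_intCast 2 m, ← Real.rpow_mul (by norm_num),
      ← Real.rpow_add (by norm_num)]
    congr 1
    push_cast
    ring
  rw [e2]
  have e3 : (2:ℝ) ^ (2 * θ) ≤ 4 := by
    calc (2:ℝ) ^ (2 * θ) ≤ (2:ℝ) ^ (2:ℝ) :=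
          Real.rpow_le_rpow_of_exponent_le (by norm_num) (by linarith)
      _ = 4 := by norm_num
  have e4 : ((2:ℝ) ^ m) ^ (2 * θ) ≤ s ^ (2 * θ) := by
    apply Real.rpow_le_rpow (by positivity) hm1.le (by positivity)
  gcongr

variable {ι : Type*} [Fintype ι] [DecidableEq ι]

theorem Good.rho (θ : ℝ) (hθ0 : 0 < θ) (hθ1 : θ < 1) :
    1 / 2 < (2:ℝ) ^ (-θ) ∧ (2:ℝ) ^ (-θ) < 1 := by
  constructor
  · have : (2:ℝ) ^ (-(1:ℝ)) < (2:ℝ) ^ (-θ) :=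
      Real.rpow_lt_rpow_of_exponent_lt (by norm_num) (by linarith)
    rw [Real.rpow_neg_one] at this
    linarith
  · exact Real.rpow_lt_one_of_one_lt_of_neg (by norm_num) (by linarith)

/-- Cotype inequality for the interpolation norm. -/
theorem Good.nsq_cotype (hA : Good A) {θ : ℝ} (hθ0 : 0 < θ) (hθ1 : θ < 1) {n : ℕ} (hn : 1 ≤ n)
    (hP : Fintype.card P ≤ 4 ^ n) {J : Finset ι} (hJ : J.Nonempty) (x : ι → X → ℝ) :
    ∑ i ∈ J, nsq A ((2:ℝ) ^ (-θ)) (x i) ≤ 180 * n * ((J.card : ℝ) / n) ^ θ *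
      avg fun ε : ι → ℤˣ => nsq A ((2:ℝ) ^ (-θ)) (∑ i ∈ J, sg (ε i) • x i) := by
  have hJ0 : (0:ℝ) < J.card := by exact_mod_cast hJ.card_pos
  have hn0 : (0:ℝ) < n := by exact_mod_cast hn
  obtain ⟨hρ1, hρ2⟩ := Good.rho θ hθ0 hθ1
  set ρ : ℝ := (2:ℝ) ^ (-θ) with hρdef
  set s : ℝ := √((J.card : ℝ) / n) with hs
  have hs0 : 0 < s := Real.sqrt_pos.2 (by positivity)
  set w : (ι → ℤˣ) → X → ℝ := fun ε => ∑ j ∈ J, sg (ε j) • x j with hw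
  have h1 : ∑ i ∈ J, nsq A ρ (x i) = ∑' a : ℤ, ∑ i ∈ J, (ρ ^ a * kf A ((2 : ℝ) ^ a) (x i)) ^ 2 :=
    (Summable.tsum_finsetSum fun i _ => hA.summable hρ1 hρ2 (x i)).symm
  have h2 := hasSum_avg (F := fun (ε : ι → ℤˣ) (a : ℤ) =>
    (ρ ^ a * kf A ((2 : ℝ) ^ a * s) (w ε)) ^ 2) (fun ε => (hA.scale hθ0 hθ1 hs0 (w ε)).1)
  have h3 : ∀ a : ℤ, ∑ i ∈ J, (ρ ^ a * kf A ((2 : ℝ) ^ a) (x i)) ^ 2 ≤
      45 * n * avg fun ε : ι → ℤˣ => (ρ ^ a * kf A ((2 : ℝ) ^ a * s) (w ε)) ^ 2 := by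
    intro a
    have h4 := cotype_ineq A hn hP (t := (2:ℝ) ^ a) (by positivity) hJ x
    simp only [mul_pow]
    rw [← Finset.mul_sum, avg_mul_left]
    calc (ρ ^ a) ^ 2 * ∑ i ∈ J, kf A (2 ^ a) (x i) ^ 2 ≤
          (ρ ^ a) ^ 2 * (45 * n * avg fun ε : ι → ℤˣ => kf A ((2:ℝ) ^ a * s) (w ε) ^ 2) := by
          gcongr
      _ = _ := by ring
  rw [h1]
  refine (Summable.tsum_le_tsum h3 (summable_sum fun i _ => hA.summable hρ1 hρ2 (x i))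
    (h2.1.mul_left _)).trans ?_
  rw [tsum_mul_left, h2.2]
  have h4 : (avg fun ε : ι → ℤˣ => ∑' a : ℤ, (ρ ^ a * kf A ((2 : ℝ) ^ a * s) (w ε)) ^ 2) ≤
      4 * s ^ (2 * θ) * avg fun ε : ι → ℤˣ => nsq A ρ (w ε) := by
    rw [← avg_mul_left]
    exact avg_mono fun ε => (hA.scale hθ0 hθ1 hs0 (w ε)).2
  have h5 : s ^ (2 * θ) = ((J.card : ℝ) / n) ^ θ := by
    rw [hs, Real.sqrt_eq_rpow, ← Real.rpow_mul (by positivity)]
    congr 1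
    ring
  rw [h5] at h4
  calc 45 * (n:ℝ) * (avg fun ε : ι → ℤˣ => ∑' a : ℤ, (ρ ^ a * kf A ((2 : ℝ) ^ a * s) (w ε)) ^ 2)
      ≤ 45 * n * (4 * ((J.card : ℝ) / n) ^ θ * avg fun ε : ι → ℤˣ => nsq A ρ (w ε)) := by
        gcongr
    _ = _ := by ring

/-- Type inequality for the interpolation norm. -/
theorem Good.nsq_type (hA : Good A) {θ : ℝ} (hθ0 : 0 < θ) (hθ1 : θ < 1) {n : ℕ} (hn : 1 ≤ n)
    (hX : Fintype.card X ≤ 4 ^ n) {J : Finset ι} (hJ : J.Nonempty) (x : ι → X → ℝ) :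
    (avg fun ε : ι → ℤˣ => nsq A ((2:ℝ) ^ (-θ)) (∑ i ∈ J, sg (ε i) • x i)) ≤
      352 * n * ((J.card : ℝ) / n) ^ (1 - θ) * ∑ i ∈ J, nsq A ((2:ℝ) ^ (-θ)) (x i) := by
  have hJ0 : (0:ℝ) < J.card := by exact_mod_cast hJ.card_pos
  have hn0 : (0:ℝ) < n := by exact_mod_cast hn
  obtain ⟨hρ1, hρ2⟩ := Good.rho θ hθ0 hθ1
  set ρ : ℝ := (2:ℝ) ^ (-θ) with hρdef
  set s : ℝ := √((n : ℝ) / J.card) with hs
  have hs0 : 0 < s := Real.sqrt_pos.2 (by positivity)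
  set w : (ι → ℤˣ) → X → ℝ := fun ε => ∑ j ∈ J, sg (ε j) • x j with hw
  have h2 := hasSum_avg (F := fun (ε : ι → ℤˣ) (a : ℤ) =>
    (ρ ^ a * kf A ((2 : ℝ) ^ a) (w ε)) ^ 2) (fun ε => hA.summable hρ1 hρ2 (w ε))
  have h3 : ∀ a : ℤ, (avg fun ε : ι → ℤˣ => (ρ ^ a * kf A ((2 : ℝ) ^ a) (w ε)) ^ 2) ≤
      88 * J.card * ∑ i ∈ J, (ρ ^ a * kf A ((2 : ℝ) ^ a * s) (x i)) ^ 2 := by
    intro a
    have h4 := type_ineq A hn hX (t := (2:ℝ) ^ a) (by positivity) hJ x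
    simp only [mul_pow]
    rw [← Finset.mul_sum, avg_mul_left]
    calc (ρ ^ a) ^ 2 * (avg fun ε : ι → ℤˣ => kf A ((2:ℝ) ^ a) (w ε) ^ 2) ≤
          (ρ ^ a) ^ 2 * (88 * J.card * ∑ i ∈ J, kf A ((2:ℝ) ^ a * s) (x i) ^ 2) := by
          gcongr
      _ = _ := by ring
  have h4 : ∀ i ∈ J, Summable fun a : ℤ => (ρ ^ a * kf A ((2 : ℝ) ^ a * s) (x i)) ^ 2 :=
    fun i _ => (hA.scale hθ0 hθ1 hs0 (x i)).1
  have h5 : (avg fun ε : ι → ℤˣ => nsq A ρ (w ε)) =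
      ∑' a : ℤ, avg fun ε : ι → ℤˣ => (ρ ^ a * kf A ((2 : ℝ) ^ a) (w ε)) ^ 2 := h2.2.symm
  rw [h5]
  refine (h2.1.tsum_le_tsum h3 ((summable_sum h4).mul_left _)).trans ?_
  rw [tsum_mul_left, Summable.tsum_finsetSum h4]
  have h6 : ∑ i ∈ J, ∑' a : ℤ, (ρ ^ a * kf A ((2 : ℝ) ^ a * s) (x i)) ^ 2 ≤
      4 * s ^ (2 * θ) * ∑ i ∈ J, nsq A ρ (x i) := by
    rw [Finset.mul_sum]
    exact Finset.sum_le_sum fun i _ => (hA.scale hθ0 hθ1 hs0 (x i)).2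
  have h7 : J.card * s ^ (2 * θ) = n * ((J.card : ℝ) / n) ^ (1 - θ) := by
    have e1 : s ^ (2 * θ) = ((n : ℝ) / J.card) ^ θ := by
      rw [hs, Real.sqrt_eq_rpow, ← Real.rpow_mul (by positivity)]
      congr 1
      ring
    have e2 : ((n : ℝ) / J.card) ^ θ = ((J.card : ℝ) / n) ^ (-θ) := by
      rw [Real.rpow_neg (by positivity), ← Real.inv_rpow (by positivity), inv_div]
    rw [e1, e2, show (1 - θ) = 1 + (-θ) by ring, Real.rpow_add (by positivity), Real.rpow_one]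
    field_simp
  calc 88 * (J.card : ℝ) * (∑ i ∈ J, ∑' a : ℤ, (ρ ^ a * kf A ((2 : ℝ) ^ a * s) (x i)) ^ 2)
      ≤ 88 * J.card * (4 * s ^ (2 * θ) * ∑ i ∈ J, nsq A ρ (x i)) := by gcongr
    _ = 352 * (J.card * s ^ (2 * θ)) * ∑ i ∈ J, nsq A ρ (x i) := by ring
    _ = _ := by rw [h7]; ring

end Vale.Agent.P111.QL
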