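import Vale.Agent.P111.QL.Ineq

set_option linter.all false

/-! From weak cotype inequalities with equal norms to cotype; duality. -/

namespace Vale.Agent.P111.QL

open Finset

variable {Y : Type*} [NormedAddCommGroup Y] [NormedSpace ℝ Y]

theorem exists_near_norming (g : Y →L[ℝ] ℝ) :
    ∃ y : Y, ‖y‖ ≤ ‖g‖ ∧ (1 / 2) * ‖g‖ ^ 2 ≤ g y := by
  rcases (norm_nonneg g).eq_or_lt with hg | hg
  · exact ⟨0, by simp, by rw [← hg]; simp⟩
  · have hlt : (1 / 2) * ‖g‖ < ‖g‖ := by nlinarith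
    obtain ⟨y, hy1, hy2⟩ := g.exists_lt_apply_of_lt_opNorm hlt
    rw [Real.norm_eq_abs] at hy2
    rcases abs_cases (g y) with ⟨h2, _⟩ | ⟨h2, _⟩
    · refine ⟨‖g‖ • y, ?_, ?_⟩
      · rw [norm_smul, norm_norm]
        calc ‖g‖ * ‖y‖ ≤ ‖g‖ * 1 := by gcongr
          _ = _ := mul_one _
      · rw [map_smul, smul_eq_mul]
        rw [h2] at hy2
        nlinarith
    · refine ⟨-(‖g‖ • y), ?_, ?_⟩
      · rw [norm_neg, norm_smul, norm_norm]
        calc ‖g‖ * ‖y‖ ≤ ‖g‖ * 1 := by gcongr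
          _ = _ := mul_one _
      · rw [map_neg, map_smul, smul_eq_mul]
        rw [h2] at hy2
        nlinarith

theorem dual_weak {ι : Type*} [Fintype ι] [DecidableEq ι] {κ : ℝ} (hκ : 0 ≤ κ) (J : Finset ι)
    (h : ∀ x : ι → Y, (avg fun ε : ι → ℤˣ => ‖∑ i ∈ J, sg (ε i) • x i‖ ^ 2) ≤
      κ * ∑ i ∈ J, ‖x i‖ ^ 2) (y : ι → (Y →L[ℝ] ℝ)) :
    ∑ i ∈ J, ‖y i‖ ^ 2 ≤ 4 * κ * avg fun ε : ι → ℤˣ => ‖∑ i ∈ J, sg (ε i) • y i‖ ^ 2 := by
  choose x hx1 hx2 using fun i => exists_near_norming (y i)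
  set S : ℝ := ∑ i ∈ J, ‖y i‖ ^ 2 with hS
  have hS0 : 0 ≤ S := Finset.sum_nonneg fun i _ => sq_nonneg _
  have h1 : (1 / 2) * S ≤ ∑ i ∈ J, y i (x i) := by
    rw [hS, Finset.mul_sum]
    exact Finset.sum_le_sum fun i _ => hx2 i
  have h2 : ∑ i ∈ J, y i (x i) =
      avg fun ε : ι → ℤˣ => (∑ i ∈ J, sg (ε i) • y i) (∑ j ∈ J, sg (ε j) • x j) := by
    rw [← avg_double J (fun i j => y i (x j))]
    apply avg_congr
    intro ε
    rw [map_sum, Finset.sum_comm]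
    apply Finset.sum_congr rfl
    intro j _
    rw [ContinuousLinearMap.sum_apply]
    apply Finset.sum_congr rfl
    intro i _
    rw [map_smul, _root_.smul_apply]
    simp only [smul_eq_mul]
    ring
  have h3 : (avg fun ε : ι → ℤˣ => (∑ i ∈ J, sg (ε i) • y i) (∑ j ∈ J, sg (ε j) • x j)) ≤
      avg fun ε : ι → ℤˣ => ‖∑ i ∈ J, sg (ε i) • y i‖ * ‖∑ j ∈ J, sg (ε j) • x j‖ := by
    apply avg_mono
    intro ε
    refine (le_abs_self _).trans ?_
    rw [← Real.norm_eq_abs]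
    exact ContinuousLinearMap.le_opNorm _ _
  have h4 : (1 / 2) * S ≤
      avg fun ε : ι → ℤˣ => ‖∑ i ∈ J, sg (ε i) • y i‖ * ‖∑ j ∈ J, sg (ε j) • x j‖ := by
    linarith
  have h5 : ((1 / 2) * S) ^ 2 ≤ (avg fun ε : ι → ℤˣ => ‖∑ i ∈ J, sg (ε i) • y i‖ ^ 2) *
      avg fun ε : ι → ℤˣ => ‖∑ j ∈ J, sg (ε j) • x j‖ ^ 2 := by
    refine le_trans ?_ (avg_mul_sq_le _ _)
    gcongr
  have h6 : ∑ i ∈ J, ‖x i‖ ^ 2 ≤ S := by
    apply Finset.sum_le_sum
    intro i _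
    have := hx1 i
    gcongr
  have h7 : (avg fun ε : ι → ℤˣ => ‖∑ j ∈ J, sg (ε j) • x j‖ ^ 2) ≤ κ * S :=
    (h x).trans (mul_le_mul_of_nonneg_left h6 hκ)
  have h8 : 0 ≤ avg fun ε : ι → ℤˣ => ‖∑ i ∈ J, sg (ε i) • y i‖ ^ 2 :=
    avg_nonneg fun _ => sq_nonneg _
  rcases hS0.eq_or_lt with h0 | h0
  · rw [← h0]
    positivity
  · have h9 : ((1 / 2) * S) ^ 2 ≤ (avg fun ε : ι → ℤˣ => ‖∑ i ∈ J, sg (ε i) • y i‖ ^ 2) *
        (κ * S) := h5.trans (mul_le_mul_of_nonneg_left h7 h8)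
    have h10 : S * S ≤
        S * (4 * κ * avg fun ε : ι → ℤˣ => ‖∑ i ∈ J, sg (ε i) • y i‖ ^ 2) := by
      nlinarith
    exact le_of_mul_le_mul_left h10 h0

/-- The constant in `weak_to_strong`. -/
noncomputable def wc (B φ q : ℝ) : ℝ :=
  B ^ (1 / (1 - φ)) * 2 ^ (2 / (1 - φ)) / (1 - 2 ^ (2 / (1 - φ) - q))

theorem weak_to_strong {B M φ q : ℝ} (hB : 0 < B) (hM : 0 < M) (hφ : φ < 1) (hq2 : 0 < q)
    (hq : 2 / (1 - φ) < q)
    (h : ∀ (m : ℕ) (y : Fin m → Y) (J : Finset (Fin m)), J.Nonempty →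
      ∑ i ∈ J, ‖y i‖ ^ 2 ≤ B * M * ((J.card : ℝ) / M) ^ φ *
        avg fun ε : Fin m → ℤˣ => ‖∑ i ∈ J, sg (ε i) • y i‖ ^ 2)
    (m : ℕ) (y : Fin m → Y) :
    (∑ i, ‖y i‖ ^ q) ^ (1 / q) ≤ (wc B φ q) ^ (1 / q) * M ^ (1 / q) *
      (avg fun ε : Fin m → ℤˣ => ‖∑ i, sg (ε i) • y i‖ ^ 2) ^ (1 / 2 : ℝ) := by
  have hφ' : 0 < 1 - φ := by linarith
  set q0 : ℝ := 2 / (1 - φ) with hq0
  have hq0pos : 0 < q0 := by positivity
  set W2 : ℝ := avg fun ε : Fin m → ℤˣ => ‖∑ i, sg (ε i) • y i‖ ^ 2 with hW2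
  have hW20 : 0 ≤ W2 := avg_nonneg fun _ => sq_nonneg _
  rw [← Real.sqrt_eq_rpow]
  set W : ℝ := √W2 with hW
  have hW0 : 0 ≤ W := Real.sqrt_nonneg _
  have hWsq : W ^ 2 = W2 := Real.sq_sqrt hW20
  have hyW : ∀ i, ‖y i‖ ≤ W := fun i => Real.le_sqrt_of_sq_le (norm_sq_le_avg y i)
  have hr1 : (2:ℝ) ^ (q0 - q) < 1 := Real.rpow_lt_one_of_one_lt_of_neg (by norm_num) (by linarith)
  have hr0 : 0 < (2:ℝ) ^ (q0 - q) := by positivity
  have hwc : 0 < wc B φ q := by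
    unfold wc
    rw [← hq0]
    have : 0 < 1 - (2:ℝ) ^ (q0 - q) := by linarith
    positivity
  rcases hW0.eq_or_lt with h0 | h0
  · have h1 : ∀ i, ‖y i‖ = 0 := fun i => le_antisymm (by rw [h0]; exact hyW i) (norm_nonneg _)
    simp only [h1]
    rw [← h0, Real.zero_rpow hq2.ne']
    simp only [Finset.sum_const_zero, mul_zero]
    rw [Real.zero_rpow (by positivity)]
  -- the number of large terms
  have hcount : ∀ u : ℝ, 0 < u → (((Finset.univ.filter fun i => u < ‖y i‖).card : ℕ) : ℝ) ≤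
      B ^ (1 / (1 - φ)) * M * (W / u) ^ q0 := by
    intro u hu
    set J := Finset.univ.filter fun i => u < ‖y i‖ with hJ
    rcases J.eq_empty_or_nonempty with he | hne
    · rw [he]
      simp
      positivity
    have hJ0 : (0:ℝ) < J.card := by exact_mod_cast hne.card_pos
    set z : ℝ := (J.card : ℝ) / M with hz
    have hz0 : 0 < z := by positivity
    have h1 : (J.card : ℝ) * u ^ 2 ≤ ∑ i ∈ J, ‖y i‖ ^ 2 := by
      rw [← nsmul_eq_mul, ← Finset.sum_const]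
      apply Finset.sum_le_sum
      intro i hi
      have : u < ‖y i‖ := (Finset.mem_filter.1 hi).2
      gcongr
    have h2 := h m y J hne
    have h3 : (avg fun ε : Fin m → ℤˣ => ‖∑ i ∈ J, sg (ε i) • y i‖ ^ 2) ≤ W ^ 2 := by
      rw [hWsq]
      exact avg_sum_subset_le y J
    have h4 : (J.card : ℝ) * u ^ 2 ≤ B * M * z ^ φ * W ^ 2 := by
      refine (h1.trans h2).trans ?_
      gcongr
    have h5 : z ^ (1 - φ) ≤ B * (W / u) ^ 2 := by
      have e1 : z ^ (1 - φ) * z ^ φ = z := by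
        rw [← Real.rpow_add hz0, sub_add_cancel, Real.rpow_one]
      have e2 : (J.card : ℝ) = z * M := by rw [hz]; field_simp
      have hzφ : 0 < z ^ φ := by positivity
      rw [e2] at h4
      have h6 : z * u ^ 2 ≤ B * z ^ φ * W ^ 2 := by
        have : M * (z * u ^ 2) ≤ M * (B * z ^ φ * W ^ 2) := by
          calc M * (z * u ^ 2) = z * M * u ^ 2 := by ring
            _ ≤ B * M * z ^ φ * W ^ 2 := h4
            _ = _ := by ring
        exact le_of_mul_le_mul_left this hM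
      rw [div_pow, ← mul_div_assoc, le_div_iff₀ (by positivity)]
      have h7 : z ^ φ * (z ^ (1 - φ) * u ^ 2) ≤ z ^ φ * (B * W ^ 2) := by
        calc z ^ φ * (z ^ (1 - φ) * u ^ 2) = (z ^ (1 - φ) * z ^ φ) * u ^ 2 := by ring
          _ = z * u ^ 2 := by rw [e1]
          _ ≤ B * z ^ φ * W ^ 2 := h6
          _ = _ := by ring
      exact le_of_mul_le_mul_left h7 hzφ
    have h6 : z ≤ B ^ (1 / (1 - φ)) * (W / u) ^ q0 := by
      calc z = (z ^ (1 - φ)) ^ (1 / (1 - φ)) := by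
            rw [← Real.rpow_mul hz0.le, mul_one_div_cancel hφ'.ne', Real.rpow_one]
        _ ≤ (B * (W / u) ^ 2) ^ (1 / (1 - φ)) := by
            apply Real.rpow_le_rpow (by positivity) h5 (by positivity)
        _ = B ^ (1 / (1 - φ)) * (W / u) ^ q0 := by
            rw [Real.mul_rpow hB.le (by positivity), ← Real.rpow_natCast,
              ← Real.rpow_mul (by positivity)]
            congr 2
            rw [hq0]
            push_cast
            ring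
    calc (J.card : ℝ) = z * M := by rw [hz]; field_simp
      _ ≤ (B ^ (1 / (1 - φ)) * (W / u) ^ q0) * M := by gcongr
      _ = _ := by ring
  -- dyadic decomposition
  have hdy : ∀ i, ∃ k : ℕ, y i = 0 ∨ (W * (1 / 2) ^ (k + 1) < ‖y i‖ ∧ ‖y i‖ ≤ W * (1 / 2) ^ k) := by
    intro i
    rcases eq_or_ne (y i) 0 with h1 | h1
    · exact ⟨0, Or.inl h1⟩
    · have h2 : 0 < ‖y i‖ := norm_pos_iff.2 h1
      obtain ⟨k, hk1, hk2⟩ := exists_nat_pow_near_of_lt_one (x := ‖y i‖ / W) (y := (1 / 2 : ℝ))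
        (by positivity) ((div_le_one h0).2 (hyW i)) (by norm_num) (by norm_num)
      rw [lt_div_iff₀ h0] at hk1
      rw [div_le_iff₀ h0] at hk2
      exact ⟨k, Or.inr ⟨by linarith, by linarith⟩⟩
  choose k hk using hdy
  set L : ℕ := ∑ i, (k i + 1) with hL
  have hkL : ∀ i, k i < L := by
    intro i
    have := Finset.single_le_sum (f := fun i => k i + 1) (fun _ _ => Nat.zero_le _)
      (Finset.mem_univ i)
    omega
  have h1 : ∑ i, ‖y i‖ ^ q ≤ ∑ l ∈ Finset.range L, (W * (1 / 2) ^ l) ^ q *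
      (((Finset.univ.filter fun i => W * (1 / 2) ^ (l + 1) < ‖y i‖).card : ℕ) : ℝ) := by
    have h2 : ∀ i, ‖y i‖ ^ q ≤ ∑ l ∈ Finset.range L, (W * (1 / 2) ^ l) ^ q *
        (if W * (1 / 2) ^ (l + 1) < ‖y i‖ then (1:ℝ) else 0) := by
      intro i
      have hnn : ∀ l ∈ Finset.range L, 0 ≤ (W * (1 / 2) ^ l) ^ q *
          (if W * (1 / 2) ^ (l + 1) < ‖y i‖ then (1:ℝ) else 0) := by
        intro l _
        split_ifs <;> positivity
      rcases hk i with h3 | ⟨h3, h4⟩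
      · rw [h3, norm_zero, Real.zero_rpow hq2.ne']
        simpa [h3] using Finset.sum_nonneg hnn
      · refine le_trans ?_ (Finset.single_le_sum hnn (Finset.mem_range.2 (hkL i)))
        rw [if_pos h3, mul_one]
        exact Real.rpow_le_rpow (norm_nonneg _) h4 hq2.le
    refine (Finset.sum_le_sum fun i _ => h2 i).trans (le_of_eq ?_)
    rw [Finset.sum_comm]
    apply Finset.sum_congr rfl
    intro l _
    rw [← Finset.mul_sum, Finset.sum_boole]
  have h2 : ∀ l : ℕ, (W * (1 / 2) ^ l) ^ q *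
      (((Finset.univ.filter fun i => W * (1 / 2) ^ (l + 1) < ‖y i‖).card : ℕ) : ℝ) ≤
      (W ^ q * M * (B ^ (1 / (1 - φ)) * 2 ^ q0)) * ((2:ℝ) ^ (q0 - q)) ^ l := by
    intro l
    have h3 := hcount (W * (1 / 2) ^ (l + 1)) (by positivity)
    have e1 : W / (W * (1 / 2) ^ (l + 1)) = 2 ^ (l + 1) := by
      rw [one_div, inv_pow]
      field_simp
    rw [e1] at h3
    calc (W * (1 / 2) ^ l) ^ q *
        (((Finset.univ.filter fun i => W * (1 / 2) ^ (l + 1) < ‖y i‖).card : ℕ) : ℝ) ≤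
        (W * (1 / 2) ^ l) ^ q * (B ^ (1 / (1 - φ)) * M * ((2:ℝ) ^ (l + 1)) ^ q0) := by gcongr
      _ = _ := by
        rw [Real.mul_rpow hW0 (by positivity), one_div, inv_pow, Real.inv_rpow (by positivity),
          ← Real.rpow_natCast, ← Real.rpow_natCast, ← Real.rpow_natCast,
          ← Real.rpow_mul (by norm_num), ← Real.rpow_mul (by norm_num),
          ← Real.rpow_mul (by norm_num)]
        have e2 : (2:ℝ) ^ (((l + 1 : ℕ) : ℝ) * q0) = 2 ^ q0 * 2 ^ ((l:ℝ) * q0) := by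
          rw [← Real.rpow_add (by norm_num)]
          congr 1
          push_cast
          ring
        have e3 : (2:ℝ) ^ ((q0 - q) * (l:ℝ)) = 2 ^ ((l:ℝ) * q0) * (2 ^ ((l:ℝ) * q))⁻¹ := by
          rw [← Real.rpow_neg (by norm_num), ← Real.rpow_add (by norm_num)]
          congr 1
          ring
        rw [e2, e3]
        ring
  have h3 : ∑ i, ‖y i‖ ^ q ≤ W ^ q * M * wc B φ q := by
    calc ∑ i, ‖y i‖ ^ q ≤ ∑ l ∈ Finset.range L,
          (W ^ q * M * (B ^ (1 / (1 - φ)) * 2 ^ q0)) * ((2:ℝ) ^ (q0 - q)) ^ l :=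
          h1.trans (Finset.sum_le_sum fun l _ => h2 l)
      _ = (W ^ q * M * (B ^ (1 / (1 - φ)) * 2 ^ q0)) *
          ∑ l ∈ Finset.range L, ((2:ℝ) ^ (q0 - q)) ^ l := by rw [Finset.mul_sum]
      _ ≤ (W ^ q * M * (B ^ (1 / (1 - φ)) * 2 ^ q0)) * (1 - (2:ℝ) ^ (q0 - q))⁻¹ := by
          have h4 : ∑ l ∈ Finset.range L, ((2:ℝ) ^ (q0 - q)) ^ l ≤ (1 - (2:ℝ) ^ (q0 - q))⁻¹ := by
            rw [← tsum_geometric_of_lt_one hr0.le hr1]
            exact (summable_geometric_of_lt_one hr0.le hr1).sum_le_tsum _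
              (fun _ _ => by positivity)
          gcongr
      _ = W ^ q * M * wc B φ q := by
          unfold wc
          rw [← hq0]
          ring
  calc (∑ i, ‖y i‖ ^ q) ^ (1 / q) ≤ (W ^ q * M * wc B φ q) ^ (1 / q) :=
        Real.rpow_le_rpow (Finset.sum_nonneg fun i _ => by positivity) h3 (by positivity)
    _ = (wc B φ q) ^ (1 / q) * M ^ (1 / q) * W := by
        rw [Real.mul_rpow (by positivity) hwc.le, Real.mul_rpow (by positivity) hM.le,
          ← Real.rpow_mul hW0, mul_one_div_cancel hq2.ne', Real.rpow_one]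
        ring

end Vale.Agent.P111.QL
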