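import Vale.Agent.P111.QL.Norm
import Vale.Agent.P111.QL.Weak
import Vale.Agent.P111.QL.Defs

set_option linter.all false

/-! The spaces. -/

namespace Vale.Agent.P111.QL

open Finset

section General

variable {X P : Type} [Fintype X] [Fintype P]

/-- The functions on `X`, with the interpolation norm. -/
def Sp (A : P → X → ℝ) (θ : Set.Ioo (0:ℝ) 1) : Type := X → ℝ

variable (A : P → X → ℝ) (θ : Set.Ioo (0:ℝ) 1)

instance : AddCommGroup (Sp A θ) := inferInstanceAs (AddCommGroup (X → ℝ))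

instance : Module ℝ (Sp A θ) := inferInstanceAs (Module ℝ (X → ℝ))

instance : FiniteDimensional ℝ (Sp A θ) := inferInstanceAs (FiniteDimensional ℝ (X → ℝ))

/-- The underlying function. -/
def ofSp : Sp A θ →ₗ[ℝ] (X → ℝ) where
  toFun v := v
  map_add' _ _ := rfl
  map_smul' _ _ := rfl

/-- A function as an element of the space. -/
def toSp : (X → ℝ) →ₗ[ℝ] Sp A θ where
  toFun v := v
  map_add' _ _ := rfl
  map_smul' _ _ := rfl

theorem of_to (v : X → ℝ) : ofSp A θ (toSp A θ v) = v := rfl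

theorem to_of (v : Sp A θ) : toSp A θ (ofSp A θ v) = v := rfl

noncomputable instance : Norm (Sp A θ) := ⟨fun v => √(nsq A ((2:ℝ) ^ (-θ.1)) (ofSp A θ v))⟩

theorem norm_def (v : Sp A θ) : ‖v‖ = √(nsq A ((2:ℝ) ^ (-θ.1)) (ofSp A θ v)) := rfl

theorem norm_sq (v : Sp A θ) : ‖v‖ ^ 2 = nsq A ((2:ℝ) ^ (-θ.1)) (ofSp A θ v) :=
  Real.sq_sqrt (nsq_nonneg _)

theorem core (hA : Good A) : NormedSpace.Core ℝ (Sp A θ) where
  norm_nonneg v := Real.sqrt_nonneg _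
  norm_smul c v := by
    rw [norm_def, norm_def, map_smul, nsq_smul, Real.sqrt_mul (sq_nonneg c),
      Real.sqrt_sq_eq_abs, Real.norm_eq_abs]
  norm_triangle u v := by
    obtain ⟨h1, h2⟩ := Good.rho θ.1 θ.2.1 θ.2.2
    rw [norm_def, norm_def, norm_def, map_add]
    exact hA.sqrt_add_le h1 h2 _ _
  norm_eq_zero_iff v := by
    constructor
    · intro h
      obtain ⟨h1, h2⟩ := Good.rho θ.1 θ.2.1 θ.2.2
      have h3 := hA.norm_sq_le h1 h2 (ofSp A θ v)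
      rw [← norm_sq, h] at h3
      have h4 : ‖ofSp A θ v‖ = 0 := by
        have := norm_nonneg (ofSp A θ v)
        nlinarith
      have h5 : ofSp A θ v = 0 := norm_eq_zero.1 h4
      rw [← to_of A θ v, h5, map_zero]
    · intro h
      rw [h, norm_def, map_zero]
      have h3 : nsq A ((2:ℝ) ^ (-θ.1)) 0 = 0 := by
        have := nsq_smul (A := A) (ρ := (2:ℝ) ^ (-θ.1)) 0 0
        simpa using this
      rw [h3, Real.sqrt_zero]

noncomputable instance [h : Fact (Good A)] : NormedAddCommGroup (Sp A θ) :=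
  NormedAddCommGroup.ofCore (core A θ h.out)

noncomputable instance [h : Fact (Good A)] : NormedSpace ℝ (Sp A θ) :=
  NormedSpace.ofCore (core A θ h.out)

variable [hA : Fact (Good A)]

theorem sup_le_norm (v : Sp A θ) (x : X) : |ofSp A θ v x| ≤ ‖v‖ := by
  obtain ⟨h1, h2⟩ := Good.rho θ.1 θ.2.1 θ.2.2
  have h3 := hA.out.norm_sq_le h1 h2 (ofSp A θ v)
  rw [← norm_sq] at h3
  have h4 : |ofSp A θ v x| ≤ ‖ofSp A θ v‖ := by
    have := norm_le_pi_norm (ofSp A θ v) x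
    rwa [Real.norm_eq_abs] at this
  have h5 : ‖ofSp A θ v‖ ≤ ‖v‖ := by
    have h6 : 0 ≤ ‖v‖ := norm_nonneg v
    exact le_of_sq_le_sq h3 h6
  linarith

theorem sp_cotype {n : ℕ} (hn : 1 ≤ n) (hP : Fintype.card P ≤ 4 ^ n) (m : ℕ)
    (y : Fin m → Sp A θ) (J : Finset (Fin m)) (hJ : J.Nonempty) :
    ∑ i ∈ J, ‖y i‖ ^ 2 ≤ 180 * n * ((J.card : ℝ) / n) ^ θ.1 *
      avg fun ε : Fin m → ℤˣ => ‖∑ i ∈ J, sg (ε i) • y i‖ ^ 2 := by
  simp only [norm_sq, map_sum, map_smul]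
  exact hA.out.nsq_cotype θ.2.1 θ.2.2 hn hP hJ _

theorem sp_type {n : ℕ} (hn : 1 ≤ n) (hX : Fintype.card X ≤ 4 ^ n) (m : ℕ)
    (y : Fin m → Sp A θ) (J : Finset (Fin m)) (hJ : J.Nonempty) :
    (avg fun ε : Fin m → ℤˣ => ‖∑ i ∈ J, sg (ε i) • y i‖ ^ 2) ≤
      352 * n * ((J.card : ℝ) / n) ^ (1 - θ.1) * ∑ i ∈ J, ‖y i‖ ^ 2 := by
  simp only [norm_sq, map_sum, map_smul]
  exact hA.out.nsq_type θ.2.1 θ.2.2 hn hX hJ _

theorem sp_cotypeWith {n : ℕ} (hn : 1 ≤ n) (hP : Fintype.card P ≤ 4 ^ n) {q : ℝ} (hq0 : 0 < q)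
    (hq : 2 / (1 - θ.1) < q) :
    CotypeWith q ((wc 180 θ.1 q) ^ (1 / q) * (n:ℝ) ^ (1 / q)) (Sp A θ) := by
  intro m y
  exact weak_to_strong (by norm_num) (by exact_mod_cast hn) θ.2.2 hq0 hq
    (fun m y J hJ => sp_cotype A θ hn hP m y J hJ) m y

theorem sp_dual_cotypeWith {n : ℕ} (hn : 1 ≤ n) (hX : Fintype.card X ≤ 4 ^ n) {r : ℝ}
    (hr0 : 0 < r) (hr : 2 / θ.1 < r) :
    CotypeWith r ((wc 1408 (1 - θ.1) r) ^ (1 / r) * (n:ℝ) ^ (1 / r)) (Sp A θ →L[ℝ] ℝ) := by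
  intro m y
  have hθ := θ.2.1
  refine weak_to_strong (by norm_num) (by exact_mod_cast hn) (by linarith) hr0
    (by rw [sub_sub_cancel]; exact hr) (fun m y J hJ => ?_) m y
  have h := dual_weak (κ := 352 * n * ((J.card : ℝ) / n) ^ (1 - θ.1)) (by positivity) J
    (fun x => sp_type A θ hn hX m x J hJ) y
  refine h.trans (le_of_eq ?_)
  ring

end General

section Atoms

/-- The atoms: the functions `x ↦ sign (∑ ε_i x_i)` and the unit vectors. -/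
noncomputable def atoms (n : ℕ) : (Fin n → ℤˣ) ⊕ (Fin n → ℤˣ) → (Fin n → ℤˣ) → ℝ
  | Sum.inl ε => fun x => (SignType.sign (∑ i, sg (ε i) * sg (x i)) : ℝ)
  | Sum.inr y => fun x => if y = x then 1 else 0

theorem abs_sign_le (a : ℝ) : |(SignType.sign a : ℝ)| ≤ 1 := by
  rcases lt_trichotomy a 0 with h | h | h
  · simp [sign_neg h]
  · simp [h]
  · simp [sign_pos h]

theorem good_atoms (n : ℕ) : Good (atoms n) where
  abs_le p x := by
    rcases p with ε | y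
    · exact abs_sign_le _
    · simp only [atoms]
      split_ifs <;> simp
  unit := ⟨Sum.inr, fun x y => ⟨fun h => by simp [atoms, h], fun h => by simp [atoms, h]⟩⟩

instance (n : ℕ) : Fact (Good (atoms n)) := ⟨good_atoms n⟩

theorem card_atoms {n : ℕ} (hn : 1 ≤ n) :
    Fintype.card ((Fin n → ℤˣ) ⊕ (Fin n → ℤˣ)) ≤ 4 ^ n := by
  simp only [Fintype.card_sum, Fintype.card_fun, Fintype.card_units_int, Fintype.card_fin]
  have h1 : 2 ≤ 2 ^ n := by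
    calc 2 = 2 ^ 1 := by norm_num
      _ ≤ 2 ^ n := Nat.pow_le_pow_right (by norm_num) hn
  have h2 : 4 ^ n = 2 ^ n * 2 ^ n := by rw [← mul_pow]; norm_num
  nlinarith

theorem card_cube (n : ℕ) : Fintype.card (Fin n → ℤˣ) ≤ 4 ^ n := by
  simp only [Fintype.card_fun, Fintype.card_units_int, Fintype.card_fin]
  exact Nat.pow_le_pow_left (by norm_num) n

/-- The bound for the norms of the atoms. -/
noncomputable def dd (ρ : ℝ) : ℝ := ∑' a : ℤ, (ρ ^ a * min 1 ((2:ℝ) ^ a)) ^ 2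

theorem dd_summable {ρ : ℝ} (h1 : 1 / 2 < ρ) (h2 : ρ < 1) :
    Summable fun a : ℤ => (ρ ^ a * min 1 ((2:ℝ) ^ a)) ^ 2 := by
  have hρ : 0 < ρ := by linarith
  have hr' : 1 / (2 * ρ) < 1 := by
    rw [div_lt_one (by linarith)]
    linarith
  have hr0 : 0 < 1 / (2 * ρ) := by positivity
  refine summable_int_of_le (C := 1) (C' := 1) (r := ρ ^ 2)
    (r' := (1 / (2 * ρ)) ^ 2) (fun a => sq_nonneg _) (by positivity) (by nlinarith)
    (by positivity) (by nlinarith) ?_ ?_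
  · intro k
    have e : (ρ ^ (k:ℤ)) ^ 2 = (ρ ^ 2) ^ k := by
      rw [zpow_natCast, ← pow_mul, ← pow_mul, mul_comm]
    have h3 : min 1 ((2:ℝ) ^ (k:ℤ)) ≤ 1 := min_le_left _ _
    have h4 : 0 ≤ min 1 ((2:ℝ) ^ (k:ℤ)) := by positivity
    rw [mul_pow, mul_comm, e]
    have h5 : (min 1 ((2:ℝ) ^ (k:ℤ))) ^ 2 ≤ 1 := by nlinarith
    gcongr
  · intro k
    have h3 : min 1 ((2:ℝ) ^ (-(k:ℤ))) ≤ (2:ℝ) ^ (-(k:ℤ)) := min_le_right _ _
    have h4 : 0 ≤ min 1 ((2:ℝ) ^ (-(k:ℤ))) := by positivity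
    calc (ρ ^ (-(k:ℤ)) * min 1 ((2:ℝ) ^ (-(k:ℤ)))) ^ 2 ≤
          (ρ ^ (-(k:ℤ)) * (2:ℝ) ^ (-(k:ℤ))) ^ 2 := by gcongr
      _ = 1 * ((1 / (2 * ρ)) ^ 2) ^ k := by
          rw [zpow_neg, zpow_neg, zpow_natCast, zpow_natCast, ← mul_inv, ← mul_pow, ← inv_pow,
            ← pow_mul, ← pow_mul, one_mul, mul_comm k 2, one_div, mul_comm ρ 2]

theorem dd_pos {ρ : ℝ} (h1 : 1 / 2 < ρ) (h2 : ρ < 1) : 0 < dd ρ := by
  have h := (dd_summable h1 h2).le_tsum 0 (fun a _ => sq_nonneg _)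
  simp only [zpow_zero, one_mul, min_self, one_pow] at h
  unfold dd
  linarith

theorem norm_atom_sq_le {n : ℕ} (θ : Set.Ioo (0:ℝ) 1) (ε : Fin n → ℤˣ) :
    ‖toSp (atoms n) θ (atoms n (Sum.inl ε))‖ ^ 2 ≤ dd ((2:ℝ) ^ (-θ.1)) := by
  obtain ⟨h1, h2⟩ := Good.rho θ.1 θ.2.1 θ.2.2
  rw [norm_sq, of_to]
  unfold nsq dd
  refine ((good_atoms n).summable h1 h2 _).tsum_le_tsum (fun a => ?_) (dd_summable h1 h2)
  have h3 := kf_atom_le (atoms n) (good_atoms n).abs_le (t := (2:ℝ) ^ a) (by positivity)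
    (Sum.inl ε)
  have h4 := kf_nonneg (atoms n) (t := (2:ℝ) ^ a) (by positivity) (atoms n (Sum.inl ε))
  gcongr

theorem rad_bound {n : ℕ} (hn : 1 ≤ n) (θ : Set.Ioo (0:ℝ) 1) {K : ℝ}
    (hK : KConvexWith K (Sp (atoms n) θ)) :
    √n ≤ √(3 * dd ((2:ℝ) ^ (-θ.1))) * K := by
  obtain ⟨h1, h2⟩ := Good.rho θ.1 θ.2.1 θ.2.2
  set D : ℝ := dd ((2:ℝ) ^ (-θ.1)) with hD
  have hD0 : 0 < D := dd_pos h1 h2
  have hn0 : (0:ℝ) < n := by exact_mod_cast hn
  let f : (Fin n → ℤˣ) → Sp (atoms n) θ := fun ε => toSp (atoms n) θ (atoms n (Sum.inl ε))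
  have hf : (avg fun ε => ‖f ε‖ ^ 2) ≤ D := avg_le_const fun ε => norm_atom_sq_le θ ε
  have hev : ∀ η : Fin n → ℤˣ, ofSp (atoms n) θ (rad f η) η =
      avg fun ε : Fin n → ℤˣ => |∑ i, sg (ε i)| := by
    intro η
    let L : Sp (atoms n) θ →ₗ[ℝ] ℝ :=
      (LinearMap.proj (R := ℝ) (φ := fun _ : Fin n → ℤˣ => ℝ) η).comp (ofSp (atoms n) θ)
    have e1 : ofSp (atoms n) θ (rad f η) η = L (rad f η) := rfl
    have e2 : ∀ g : (Fin n → ℤˣ) → Sp (atoms n) θ, L (avg g) = avg fun ε => L (g ε) := by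
      intro g
      simp [avg, map_sum]
    rw [e1]
    unfold rad
    rw [map_sum]
    simp only [map_smul, e2]
    have e3 : ∀ ε, L (f ε) = (SignType.sign (∑ i, sg (ε i) * sg (η i)) : ℝ) := fun ε => rfl
    simp only [e3, smul_eq_mul]
    have e4 : ∑ i, sg (η i) * (avg fun ε : Fin n → ℤˣ =>
        sg (ε i) * (SignType.sign (∑ i, sg (ε i) * sg (η i)) : ℝ)) =
        avg fun ε : Fin n → ℤˣ => |∑ i, sg (ε i) * sg (η i)| := by
      simp only [← avg_mul_left]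
      rw [← avg_sum]
      apply avg_congr
      intro ε
      rw [← self_mul_sign, Finset.sum_mul]
      apply Finset.sum_congr rfl
      intro i _
      ring
    rw [e4]
    have e5 := avg_comp_equiv (Equiv.mulRight η) (fun ε : Fin n → ℤˣ => |∑ i, sg (ε i)|)
    rw [← e5]
    apply avg_congr
    intro ε
    simp only [Equiv.coe_mulRight, Pi.mul_apply, sg_mul]
  have hlow : (n:ℝ) / 3 ≤ avg fun η => ‖rad f η‖ ^ 2 := by
    apply const_le_avg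
    intro η
    have h3 := sup_le_norm (atoms n) θ (rad f η) η
    rw [hev η] at h3
    have h4 := sqrt_le_avg_abs_sum (ι := Fin n) (by rw [Fintype.card_fin]; omega)
    rw [Fintype.card_fin] at h4
    have h5 : 0 ≤ avg fun ε : Fin n → ℤˣ => |∑ i, sg (ε i)| := avg_nonneg fun _ => abs_nonneg _
    rw [abs_of_nonneg h5] at h3
    have h6 : √((n:ℝ) / 3) ≤ ‖rad f η‖ := h4.trans h3
    calc (n:ℝ) / 3 = √((n:ℝ) / 3) ^ 2 := (Real.sq_sqrt (by positivity)).symm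
      _ ≤ ‖rad f η‖ ^ 2 := by gcongr
  have h3 := hK n f
  rw [← Real.sqrt_eq_rpow, ← Real.sqrt_eq_rpow] at h3
  have h4 : √((n:ℝ) / 3) ≤ K * √(avg fun ε => ‖f ε‖ ^ 2) := (Real.sqrt_le_sqrt hlow).trans h3
  have h5 : 0 < √((n:ℝ) / 3) := Real.sqrt_pos.2 (by positivity)
  have h6 : 0 ≤ √(avg fun ε => ‖f ε‖ ^ 2) := Real.sqrt_nonneg _
  have hK0 : 0 ≤ K := by
    by_contra hneg
    push Not at hneg
    nlinarith
  have h7 : √(avg fun ε => ‖f ε‖ ^ 2) ≤ √D := Real.sqrt_le_sqrt hf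
  have h8 : √((n:ℝ) / 3) ≤ K * √D := h4.trans (mul_le_mul_of_nonneg_left h7 hK0)
  have h9 : √(n:ℝ) = √3 * √((n:ℝ) / 3) := by
    rw [← Real.sqrt_mul (by norm_num)]
    congr 1
    field_simp
  rw [h9, Real.sqrt_mul (by norm_num)]
  calc √3 * √((n:ℝ) / 3) ≤ √3 * (K * √D) := by gcongr
    _ = _ := by ring

end Atoms

end Vale.Agent.P111.QL
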