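import Vale.Agent.P111.QL.Avg
import Mathlib.Analysis.SpecialFunctions.Trigonometric.Series
import Mathlib.Analysis.Complex.ExponentialBounds

set_option linter.all false

/-! Type 2 constants of `ℓ_∞` spaces of small dimension. -/

namespace Vale.Agent.P111.QL

open Finset

variable {ι : Type*} [Fintype ι] [DecidableEq ι]

theorem avg_exp_le (a : ι → ℝ) :
    (avg fun ε : ι → ℤˣ => Real.exp (∑ i, sg (ε i) * a i)) ≤ Real.exp ((∑ i, a i ^ 2) / 2) := by
  have h1 : (avg fun ε : ι → ℤˣ => Real.exp (∑ i, sg (ε i) * a i)) =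
      ∏ i, Real.cosh (a i) := by
    have h := avg_pi_prod (I := ι) (α := ℤˣ) (fun i u => Real.exp (sg u * a i))
    simp only [Real.exp_sum]
    rw [h]
    apply Finset.prod_congr rfl
    intro i _
    rw [avg_units, sg_one, sg_neg_one, Real.cosh_eq]
    ring_nf
  rw [h1]
  calc ∏ i, Real.cosh (a i) ≤ ∏ i, Real.exp (a i ^ 2 / 2) :=
        Finset.prod_le_prod (fun i _ => (Real.cosh_pos _).le)
          (fun i _ => Real.cosh_le_exp_half_sq _)
    _ = Real.exp ((∑ i, a i ^ 2) / 2) := by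
        rw [← Real.exp_sum, Finset.sum_div]

theorem avg_pow_le (a : ι → ℝ) {s : ℝ} (hs : 0 < s) (ha : ∑ i, a i ^ 2 ≤ s) {k : ℕ}
    (hk : 1 ≤ k) :
    (avg fun ε : ι → ℤˣ => (∑ i, sg (ε i) * a i) ^ (2 * k)) ≤
      2 * (2 * Real.exp 1 * k * s) ^ k := by
  have hk0 : (0:ℝ) < k := by exact_mod_cast hk
  set lam : ℝ := √(2 * k / s) with hlam
  have hlam0 : 0 < lam := Real.sqrt_pos.2 (by positivity)
  have hlam2 : lam ^ 2 = 2 * k / s := Real.sq_sqrt (by positivity)
  -- pointwise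
  have key : ∀ x : ℝ, x ^ (2 * k) ≤
      (Nat.factorial (2 * k) : ℝ) / lam ^ (2 * k) * (Real.exp (lam * x) + Real.exp (-lam * x)) := by
    intro x
    have h1 : (lam * x) ^ (2 * k) / (Nat.factorial (2 * k)) ≤
        Real.exp (lam * x) + Real.exp (-lam * x) := by
      have h2 : (lam * x) ^ (2 * k) = |lam * x| ^ (2 * k) := by
        rw [pow_mul, pow_mul, sq_abs]
      rw [h2]
      refine (Real.pow_div_factorial_le_exp _ (abs_nonneg _) _).trans ?_
      rcases abs_cases (lam * x) with ⟨h, _⟩ | ⟨h, _⟩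
      · rw [h]
        have := Real.exp_pos (-lam * x)
        linarith
      · rw [h]
        have := Real.exp_pos (lam * x)
        have e : -(lam * x) = -lam * x := by ring
        rw [e]
        linarith
    have hf : (0:ℝ) < (Nat.factorial (2 * k) : ℝ) := by exact_mod_cast Nat.factorial_pos _
    have hl : 0 < lam ^ (2 * k) := by positivity
    rw [div_le_iff₀ hf, mul_pow] at h1
    rw [div_mul_eq_mul_div, le_div_iff₀ hl]
    linarith
  have h1 := avg_mono (f := fun ε : ι → ℤˣ => (∑ i, sg (ε i) * a i) ^ (2 * k))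
    (g := fun ε : ι → ℤˣ => (Nat.factorial (2 * k) : ℝ) / lam ^ (2 * k) *
      (Real.exp (lam * (∑ i, sg (ε i) * a i)) + Real.exp (-lam * (∑ i, sg (ε i) * a i))))
    (fun ε => key _)
  refine h1.trans ?_
  rw [avg_mul_left, avg_add]
  have h2 : ∀ c : ℝ, c ^ 2 = lam ^ 2 →
      (avg fun ε : ι → ℤˣ => Real.exp (c * ∑ i, sg (ε i) * a i)) ≤ Real.exp 1 ^ k := by
    intro c hc
    have h3 := avg_exp_le (fun i => c * a i)
    have e : ∀ ε : ι → ℤˣ, Real.exp (∑ i, sg (ε i) * (c * a i)) =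
        Real.exp (c * ∑ i, sg (ε i) * a i) := by
      intro ε
      rw [Finset.mul_sum]
      congr 1
      apply Finset.sum_congr rfl
      intro i _
      ring
    rw [avg_congr e] at h3
    refine h3.trans ?_
    rw [← Real.exp_nat_mul, mul_one]
    apply Real.exp_le_exp.2
    have e2 : ∑ i, (c * a i) ^ 2 = lam ^ 2 * ∑ i, a i ^ 2 := by
      rw [Finset.mul_sum, ← hc]
      apply Finset.sum_congr rfl
      intro i _
      ring
    rw [e2, hlam2]
    have : 2 * (k:ℝ) / s * ∑ i, a i ^ 2 ≤ 2 * k / s * s := by gcongr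
    have e3 : 2 * (k:ℝ) / s * s = 2 * k := by field_simp
    linarith
  have h3 := h2 lam rfl
  have h4 := h2 (-lam) (by ring)
  have h5 : (Nat.factorial (2 * k) : ℝ) / lam ^ (2 * k) ≤ (2 * k * s) ^ k := by
    rw [pow_mul, hlam2, div_le_iff₀ (by positivity), ← mul_pow]
    have e : 2 * (k:ℝ) * s * (2 * k / s) = (2 * k) ^ 2 := by field_simp
    rw [e, ← pow_mul]
    have := Nat.factorial_le_pow (2 * k)
    calc ((Nat.factorial (2 * k) : ℕ) : ℝ) ≤ (((2 * k) ^ (2 * k) : ℕ) : ℝ) := by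
          exact_mod_cast this
      _ = _ := by push_cast; ring
  have h6 : 0 ≤ Real.exp 1 ^ k := by positivity
  calc (Nat.factorial (2 * k) : ℝ) / lam ^ (2 * k) *
        ((avg fun ε : ι → ℤˣ => Real.exp (lam * ∑ i, sg (ε i) * a i)) +
          avg fun ε : ι → ℤˣ => Real.exp (-lam * ∑ i, sg (ε i) * a i))
      ≤ (2 * k * s) ^ k * (Real.exp 1 ^ k + Real.exp 1 ^ k) := by
        apply mul_le_mul h5 (add_le_add h3 h4) _ (by positivity)
        exact add_nonneg (avg_nonneg fun _ => (Real.exp_pos _).le)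
          (avg_nonneg fun _ => (Real.exp_pos _).le)
    _ = 2 * ((2 * k * s) ^ k * Real.exp 1 ^ k) := by ring
    _ = 2 * (2 * Real.exp 1 * k * s) ^ k := by
        rw [← mul_pow]
        ring_nf

theorem avg_pow_mono {Ω : Type*} [Fintype Ω] [Nonempty Ω] (f : Ω → ℝ) (hf : ∀ ω, 0 ≤ f ω)
    (n : ℕ) : (avg f) ^ n ≤ avg fun ω => f ω ^ n := by
  have hc : (Fintype.card Ω : ℝ) ≠ 0 := by exact_mod_cast Fintype.card_ne_zero
  have h := Real.pow_arith_mean_le_arith_mean_pow Finset.univ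
    (fun _ : Ω => (Fintype.card Ω : ℝ)⁻¹) f (fun _ _ => by positivity)
    (by simp [hc]) (fun ω _ => hf ω) n
  simp only [← Finset.mul_sum] at h
  simpa [avg] using h

theorem sup_type2_aux {S : Type*} [Fintype S] {n : ℕ} (hn : 1 ≤ n)
    (hS : Fintype.card S ≤ 4 ^ n) (v : ι → S → ℝ) :
    (avg fun ε : ι → ℤˣ => ‖∑ i, sg (ε i) • v i‖ ^ 2) ≤ 44 * n * ∑ i, ‖v i‖ ^ 2 := by
  have hn0 : (0:ℝ) < n := by exact_mod_cast hn
  rcases (Finset.sum_nonneg fun i (_ : i ∈ Finset.univ) => sq_nonneg ‖v i‖).eq_or_lt with h0 | h0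
  · have h1 : ∀ i, v i = 0 := by
      intro i
      have := (Finset.sum_eq_zero_iff_of_nonneg
        (fun i (_ : i ∈ Finset.univ) => sq_nonneg ‖v i‖)).1 h0.symm i (Finset.mem_univ i)
      have h2 : ‖v i‖ = 0 := by nlinarith [norm_nonneg (v i)]
      exact norm_eq_zero.1 h2
    simp [h1, avg]
  set s : ℝ := ∑ i, ‖v i‖ ^ 2 with hs
  have h1 : ∀ x : S, ∑ i, (v i x) ^ 2 ≤ s := by
    intro x
    rw [hs]
    apply Finset.sum_le_sum
    intro i _
    rw [← sq_abs, ← Real.norm_eq_abs]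
    gcongr
    exact norm_le_pi_norm (v i) x
  have h2 : ∀ x : S, (avg fun ε : ι → ℤˣ => (∑ i, sg (ε i) * v i x) ^ (2 * n)) ≤
      2 * (2 * Real.exp 1 * n * s) ^ n := fun x => avg_pow_le (fun i => v i x) h0 (h1 x) hn
  have h3 : ∀ ε : ι → ℤˣ, (‖∑ i, sg (ε i) • v i‖ ^ 2) ^ n ≤
      ∑ x : S, (∑ i, sg (ε i) * v i x) ^ (2 * n) := by
    intro ε
    rw [← pow_mul]
    rcases isEmpty_or_nonempty S with hS' | hS'
    · have : ∑ i, sg (ε i) • v i = 0 := Subsingleton.elim _ _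
      rw [this, norm_zero, zero_pow (by omega)]
      simp
    · obtain ⟨x, hx⟩ := Finite.exists_max (fun x => ‖(∑ i, sg (ε i) • v i) x‖)
      have hx1 : ‖∑ i, sg (ε i) • v i‖ ≤ ‖(∑ i, sg (ε i) • v i) x‖ :=
        (pi_norm_le_iff_of_nonneg (norm_nonneg _)).2 hx
      have hx2 : ‖(∑ i, sg (ε i) • v i) x‖ ^ (2 * n) = (∑ i, sg (ε i) * v i x) ^ (2 * n) := by
        rw [Real.norm_eq_abs, pow_mul, sq_abs, ← pow_mul]
        congr 1
        simp [Finset.sum_apply]
      refine (pow_le_pow_left₀ (norm_nonneg _) hx1 (2 * n)).trans ?_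
      rw [hx2]
      exact Finset.single_le_sum (f := fun x => (∑ i, sg (ε i) * v i x) ^ (2 * n))
        (fun x _ => by rw [pow_mul]; positivity) (Finset.mem_univ x)
  have h4 : (avg fun ε : ι → ℤˣ => (‖∑ i, sg (ε i) • v i‖ ^ 2) ^ n) ≤
      (16 * Real.exp 1 * n * s) ^ n := by
    refine (avg_mono h3).trans ?_
    rw [avg_sum]
    calc ∑ x : S, (avg fun ε : ι → ℤˣ => (∑ i, sg (ε i) * v i x) ^ (2 * n))
        ≤ ∑ x : S, 2 * (2 * Real.exp 1 * n * s) ^ n := Finset.sum_le_sum fun x _ => h2 x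
      _ = (Fintype.card S : ℝ) * (2 * (2 * Real.exp 1 * n * s) ^ n) := by
          rw [Finset.sum_const, Finset.card_univ, nsmul_eq_mul]
      _ ≤ (4:ℝ) ^ n * (2 ^ n * (2 * Real.exp 1 * n * s) ^ n) := by
          have e1 : (Fintype.card S : ℝ) ≤ 4 ^ n := by exact_mod_cast hS
          have e2 : (2:ℝ) ≤ 2 ^ n := by
            calc (2:ℝ) = 2 ^ 1 := by norm_num
              _ ≤ 2 ^ n := pow_le_pow_right₀ (by norm_num) hn
          have e3 : 0 ≤ (2 * Real.exp 1 * n * s) ^ n := by positivity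
          gcongr
      _ = (16 * Real.exp 1 * n * s) ^ n := by
          rw [← mul_pow, ← mul_pow]
          ring_nf
  have h5 := (avg_pow_mono (fun ε : ι → ℤˣ => ‖∑ i, sg (ε i) • v i‖ ^ 2)
    (fun _ => by positivity) n).trans h4
  have h6 := le_of_pow_le_pow_left₀ (by omega) (by positivity) h5
  refine h6.trans ?_
  have h7 : 16 * Real.exp 1 ≤ 44 := by
    have := Real.exp_one_lt_d9
    linarith
  have h8 : 0 ≤ n * s := by positivity
  nlinarith

theorem sup_type2 {S : Type*} [Fintype S] {n : ℕ} (hn : 1 ≤ n)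
    (hS : Fintype.card S ≤ 4 ^ n) (J : Finset ι) (v : ι → S → ℝ) :
    (avg fun ε : ι → ℤˣ => ‖∑ i ∈ J, sg (ε i) • v i‖ ^ 2) ≤ 44 * n * ∑ i ∈ J, ‖v i‖ ^ 2 := by
  have h := sup_type2_aux hn hS (fun i => if i ∈ J then v i else 0)
  have e1 : ∀ ε : ι → ℤˣ, ∑ i, sg (ε i) • (if i ∈ J then v i else 0) =
      ∑ i ∈ J, sg (ε i) • v i := by
    intro ε
    simp [smul_ite, Finset.sum_ite_mem]
  have e2 : ∑ i, ‖(if i ∈ J then v i else 0)‖ ^ 2 = ∑ i ∈ J, ‖v i‖ ^ 2 := by
    rw [← Finset.sum_subset (Finset.subset_univ J)]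
    · apply Finset.sum_congr rfl
      intro i hi
      rw [if_pos hi]
    · intro i _ hi
      rw [if_neg hi]
      simp
  simp only [e1, e2] at h
  exact h

end Vale.Agent.P111.QL
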